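import Vale.Agent.P032.H184.Kill

/-!
# P032: renaming the colours

`A.perm σ` : the atoms with the colours renamed; `LOW.perm` : the rules are invariant.
-/

namespace Vale.Agent.P032.H184

variable {A : At}

/-- the colour `i` of the new atoms is the colour `σ i` of the old ones -/
def At.perm (A : At) (σ : Equiv.Perm (Fin 6)) : At where
  TT m n i := A.TT m n (σ i)
  LT s m n j i := A.LT s m n j (σ i)
  IN s m n j i := A.IN s m n j (σ i)
  OUT s m n j i := A.OUT s m n j (σ i)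
  MM m n a b := A.MM m n (σ a) (σ b)
  win s i := A.win s (σ i)
  IC k c := A.IC k (σ c)
  OC k c := A.OC k (σ c)

theorem exσ (σ : Equiv.Perm (Fin 6)) {Q : Fin 6 → Prop} (h : ∃ i, Q i) : ∃ i, Q (σ i) := by
  obtain ⟨i, hi⟩ := h
  exact ⟨σ.symm i, by rwa [Equiv.apply_symm_apply]⟩

theorem ge_perm {σ : Equiv.Perm (Fin 6)} {m n : ℤ} {k : ℕ} : (A.perm σ).GE m n k ↔ A.GE m n k := by
  constructor
  · rintro ⟨S, h1, h2⟩
    refine ⟨S.map σ.toEmbedding, by rw [Finset.card_map, h1], fun i hi => ?_⟩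
    obtain ⟨j, hj, rfl⟩ := Finset.mem_map.1 hi
    exact h2 j hj
  · rintro ⟨S, h1, h2⟩
    refine ⟨S.map σ.symm.toEmbedding, by rw [Finset.card_map, h1], fun i hi => ?_⟩
    obtain ⟨j, hj, rfl⟩ := Finset.mem_map.1 hi
    show A.TT m n (σ (σ.symm j))
    rw [Equiv.apply_symm_apply]
    exact h2 j hj

theorem LOW.perm (h : LOW A) (σ : Equiv.Perm (Fin 6)) : LOW (A.perm σ) := by
  have n : ∀ {a b : Fin 6}, a ≠ b → σ a ≠ σ b := fun hab e => hab (σ.injective e)
  have nn : ∀ {a : Fin 6} {i : Fin 6}, σ a ≠ σ i → a ≠ i := fun hab e => hab (by rw [e])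
  exact {
    six := fun i => h.six _
    memb := fun s m n j i hi => h.memb _ _ _ _ _ hi
    neI := fun s m n j => exσ σ (h.neI s m n j)
    neO := fun s m n j => exσ σ (h.neO s m n j)
    inL := fun s m n j i hi => h.inL _ _ _ _ _ hi
    outL := fun s m n j i hi => h.outL _ _ _ _ _ hi
    lio := fun s m n j i hi => h.lio _ _ _ _ _ hi
    pair2 := by
      intro s m n j i hi ht
      obtain ⟨i', h1, h2⟩ := exσ σ (h.pair2 _ _ _ _ _ hi ht)
      exact ⟨i', nn h1, h2⟩
    sub4 := by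
      intro s m n j
      rcases h.sub4 s m n j with h1 | h1
      · exact Or.inl (ge_perm.2 h1)
      · exact Or.inr (exσ σ h1)
    sideIO := fun s j i hi => h.sideIO _ _ _ hi
    side4 := fun s m n' j x y a b h1 h2 h3 h4 h5 h6 h7 h8 h9 h10 =>
      ge_perm.2 (h.side4 s m n' j _ _ _ _ (n h1) (n h2) (n h3) (n h4) (n h5) (n h6) h7 h8 h9 h10)
    symM := fun m n a b hm => h.symM _ _ _ _ hm
    defM := by
      intro s m n' j a b hab h1 h2 h3 h4
      rcases h.defM s m n' j _ _ (n hab) h1 h2 h3 h4 with h5 | h5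
      · exact Or.inl h5
      · obtain ⟨c, h6, h7, h8⟩ := exσ σ h5
        exact Or.inr ⟨c, nn h6, nn h7, h8⟩
    sweepO := fun s m n j j' hs s' => exσ σ (h.sweepO s m n j j' hs s')
    sweepI := fun s m n j j' hs s' => exσ σ (h.sweepI s m n j j' hs s')
    wedgeO := fun s m n j => exσ σ (h.wedgeO s m n j)
    wedgeI := fun s m n j => exσ σ (h.wedgeI s m n j)
    wedgeO' := fun s m n j => exσ σ (h.wedgeO' s m n j)
    wedgeI' := fun s m n j => exσ σ (h.wedgeI' s m n j)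
    sixty := fun s m n j i hi => h.sixty _ _ _ _ _ hi
    product := fun s m n j l i hi => h.product _ _ _ _ _ _ hi
    mdeg4 := fun m n' i a b h1 h2 h3 h4 h5 =>
      ge_perm.2 (h.mdeg4 m n' _ _ _ (n h1) (n h2) (n h3) h4 h5)
    mdeg5 := fun m n' i a b c h1 h2 h3 h4 h5 h6 h7 h8 h9 =>
      ge_perm.2 (h.mdeg5 m n' _ _ _ _ (n h1) (n h2) (n h3) (n h4) (n h5) (n h6) h7 h8 h9)
    mdeg6 := fun m n' i a b c d h1 h2 h3 h4 h5 h6 h7 h8 h9 h10 =>
      h.mdeg6 m n' _ _ _ _ _ (n h1) (n h2) (n h3) (n h4) (n h5) (n h6) (n h7) (n h8) (n h9) (n h10)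
    k23 := fun m n' a b c d e h1 h2 h3 h4 h5 h6 h7 h8 h9 h10 =>
      h.k23 m n' _ _ _ _ _ (n h1) (n h2) (n h3) (n h4) (n h5) (n h6) (n h7) (n h8) (n h9) (n h10)
    c4 := fun m n' a b c d h1 h2 h3 h4 h5 h6 h7 h8 h9 h10 =>
      ge_perm.2 (h.c4 m n' _ _ _ _ (n h1) (n h2) (n h3) (n h4) (n h5) (n h6) h7 h8 h9 h10)
    notsub := by
      intro m n' j
      rcases h.notsub m n' j with h1 | h1
      · exact Or.inl (ge_perm.2 h1)
      · exact Or.inr (exσ σ h1)
    third := by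
      intro m n' j l t h1 h2 h3
      rcases h.third m n' j l _ h1 h2 h3 with h4 | h4
      · exact Or.inl (ge_perm.2 h4)
      · obtain ⟨i, h5, h6, h7⟩ := exσ σ h4
        exact Or.inr ⟨i, nn h5, h6, h7⟩
    lemB := by
      intro m n' j l i i' h1 h2 h3 h4 h5
      obtain ⟨c, h6, h7, h8⟩ := exσ σ (h.lemB m n' j l _ _ h1 h2 (n h3) h4 h5)
      exact ⟨c, nn h6, nn h7, h8⟩
    wlen := fun s i => h.wlen s _
    wstep := fun i => h.wstep _
    winn := fun s j i hi => h.winn _ _ _ hi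
    wout := fun s j i hi => h.wout _ _ _ hi
    cover := fun s m => exσ σ (h.cover s m)
    side := fun k c hc => h.side _ _ hc
    icT := fun k c hc => h.icT _ _ hc
    ocT := fun k c hc => h.ocT _ _ hc
    hullO := fun k c hc => h.hullO _ _ hc
    hullI := fun k c hc => h.hullI _ _ hc
    sidezI := fun s k c hc => h.sidezI _ _ _ hc
    sidezO := fun s k c hc => h.sidezO _ _ _ hc
    sidelI := fun s k m c hw hl => h.sidelI _ _ _ _ hw hl
    sidelO := fun s k m c hw hl => h.sidelO _ _ _ _ hw hl }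

end Vale.Agent.P032.H184
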