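import Vale.Agent.P032.H184.Low
import Vale.Agent.P032.H184.Perm
import Vale.Agent.P032.H184.Z.Main
import Vale.Agent.P032.H314.NoSucc
import Vale.Agent.P032.H266.FamZ

/-!
# P032: the forbidden pairs of columns on the line of times

`kill_hold` : for a pair `(p, q)` of the table, renamed by `σ` and turned, `Hold p` before `u` and
`Hold q` after `u` is impossible.  `kill_LS` : the same for the limit states.
-/

open Set Filter Topology Metric

noncomputable section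

namespace Vale.Agent.P032.H184

open Vale.Agent.P032.Six Vale.Agent.P032.Sweep Vale.Agent.P032.S5.H767 Vale.Agent.P032.S5.H122
  Vale.Agent.P032.H158 Vale.Agent.P032.H437 Vale.Agent.P032.H782
open Vale.Agent.P032.H429 (wn wr WinData Cl St LS RS)
open Vale.Agent.P032.H314 (Hold hold_const hold_turn sh)
open Vale.Agent.P032.H266 (Hon no_out no_inn HD_of_Dr outN_of_occ innN_of_occ)

variable {U : Fin 6 → Set ℂ} {T : ℂ → Set (Fin 6)} {z : ℂ} {L R : Fin 6 → ℝ} {u : ℝ}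
  {F : Bool → Ultrafilter ℝ}

/-- a colour near the slot `s` has its window in front or behind -/
def SideH (T : ℂ → Set (Fin 6)) (z : ℂ) (L R : Fin 6 → ℝ) : Prop :=
  ∀ s ∈ Lc T z, ∀ x ∈ T (pt z s),
    (∃ n : ℤ, s - 3 / 2 < L x + 6 * n ∧ R x + 6 * n < s + 3 / 2) ∨
    ∃ n : ℤ, s + 3 / 2 < L x + 6 * n ∧ R x + 6 * n < s + 9 / 2

theorem hon_of (hle : ∀ i, L i ≤ R i)
    (hD : ∀ i, L i ∈ H266.HD U z i ∧ R i ∈ H266.HD U z i) (i : Fin 6) :
    Hon U z L R i :=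
  ⟨L i, (hD i).1, 0, by simp, by simpa using hle i⟩

theorem front_inn (w : WinData T z L R) {t : ℝ} {i j : Fin 6}
    (hf : ∃ n : ℤ, t + (j.val : ℝ) - 3 / 2 < L i + 6 * n ∧ R i + 6 * n < t + (j.val : ℝ) + 3 / 2) :
    H429.inn (wn L R t i) (j.val : ZMod 6) := by
  obtain ⟨n, h3, h4⟩ := hf
  have := (w.inn_iff (t := t) (i := i) (j := (j.val : ℤ))).2 ⟨n, ?_, ?_⟩
  · simpa using this
  · rw [← H429.sc_int, H429.le_sc]; push_cast; linarith
  · rw [← H429.sc_int, H429.sc_lt]; push_cast; linarith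

theorem back_out (w : WinData T z L R) {t : ℝ} {i j : Fin 6}
    (hf : ∃ n : ℤ, t + (j.val : ℝ) + 3 / 2 < L i + 6 * n ∧ R i + 6 * n < t + (j.val : ℝ) + 9 / 2) :
    H429.out (wn L R t i) (j.val : ZMod 6) := by
  obtain ⟨n, h3, h4⟩ := hf
  have := (w.out_iff (t := t) (i := i) (j := (j.val : ℤ))).2 ⟨n, ?_, ?_⟩
  · simpa using this
  · rw [← H429.sc_int, H429.le_sc]; push_cast; linarith
  · rw [← H429.sc_int, H429.sc_lt]; push_cast; linarith

/-- the window of a time of the ultrafilter -/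
theorem ev_win (hf : Fr U T u F) (L R : Fin 6 → ℝ) (s : Bool) :
    ∀ᶠ v in (F s : Filter ℝ), wn L R v = fun i => bif s then wr L R u i else wn L R u i := by
  cases s
  · exact (H429.wn_left L R u).filter_mono hf.left
  · exact (H429.wn_right L R u).filter_mono hf.right

theorem hin_of (hf : Fr U T u F) (w : WinData T z L R) (hs : SideH T z L R)
    (hD : ∀ i, L i ∈ H266.HD U z i ∧ R i ∈ H266.HD U z i) (s : Bool) (j i : Fin 6)
    (hi : Inn (F s) T z (j.val : ℝ) i) :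
    H429.inn (bif s then wr L R u i else wn L R u i) (j.val : ZMod 6) := by
  have hi' : ∀ᶠ v in (F s : Filter ℝ), OccIn T (pt z (v + (j.val : ℝ))) {x | dist x z < 1} i := hi
  obtain ⟨v, ⟨h1, h2⟩, h3, h4⟩ := ((hi'.and (ev_win hf L R s)).and
    ((hf.lc s z (j.val : ℝ)).and (Eventually.of_forall fun _ => trivial))).exists
  have h5 := congrFun h2 i
  rw [← h5]
  rcases hs _ h3 i (h1.mem hf.irr) with h6 | h6
  · exact front_inn w h6
  · exact (no_inn (hon_of w.le hD i) h6 (innN_of_occ hf.irr h1)).elim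

theorem hout_of (hf : Fr U T u F) (w : WinData T z L R) (hs : SideH T z L R)
    (hD : ∀ i, L i ∈ H266.HD U z i ∧ R i ∈ H266.HD U z i) (s : Bool) (j i : Fin 6)
    (hi : Out (F s) T z (j.val : ℝ) i) :
    H429.out (bif s then wr L R u i else wn L R u i) (j.val : ZMod 6) := by
  have hi' : ∀ᶠ v in (F s : Filter ℝ), OccIn T (pt z (v + (j.val : ℝ))) {x | 1 < dist x z} i := hi
  obtain ⟨v, ⟨h1, h2⟩, h3, h4⟩ := ((hi'.and (ev_win hf L R s)).and
    ((hf.lc s z (j.val : ℝ)).and (Eventually.of_forall fun _ => trivial))).exists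
  have h5 := congrFun h2 i
  rw [← h5]
  rcases hs _ h3 i (h1.mem hf.irr) with h6 | h6
  · exact (no_out (hon_of w.le hD i) h6 (outN_of_occ hf.irr h1)).elim
  · exact back_out w h6

theorem hio_of (hf : Fr U T u F) (w : WinData T z L R) (hs : SideH T z L R)
    (hD : ∀ i, L i ∈ H266.HD U z i ∧ R i ∈ H266.HD U z i) (s : Bool) (j i : Fin 6)
    (hi : Inn (F s) T z (j.val : ℝ) i) : ¬ Out (F s) T z (j.val : ℝ) i := by
  intro ho
  have hi' : ∀ᶠ v in (F s : Filter ℝ), OccIn T (pt z (v + (j.val : ℝ))) {x | dist x z < 1} i := hi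
  have ho' : ∀ᶠ v in (F s : Filter ℝ), OccIn T (pt z (v + (j.val : ℝ))) {x | 1 < dist x z} i := ho
  obtain ⟨v, ⟨h1, h2⟩, h3⟩ := ((hi'.and ho').and (hf.lc s z (j.val : ℝ))).exists
  rcases hs _ h3 i (h1.mem hf.irr) with h6 | h6
  · exact no_out (hon_of w.le hD i) h6 (outN_of_occ hf.irr h2)
  · exact no_inn (hon_of w.le hD i) h6 (innN_of_occ hf.irr h1)

theorem win_gen (h : Irr U T) (_w : WinData T z L R) (u : ℝ) (s : Bool) :
    ∃ v ∈ WinData.G T z L R, wn L R v = fun i => bif s then wr L R u i else wn L R u i := by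
  have hd := WinData.G_dense h z L R
  cases s
  · have h1 := H429.wn_left L R u
    obtain ⟨a, ha, hS⟩ := mem_nhdsLT_iff_exists_Ioo_subset.1 h1
    obtain ⟨t, h2, h3⟩ := hd.exists_mem_open (isOpen_Ioo (a := a) (b := u)) (nonempty_Ioo.2 ha)
    exact ⟨t, h2, hS h3⟩
  · have h1 := H429.wn_right L R u
    obtain ⟨a, ha, hS⟩ := mem_nhdsGT_iff_exists_Ioo_subset.1 h1
    obtain ⟨t, h2, h3⟩ := hd.exists_mem_open (isOpen_Ioo (a := u) (b := a)) (nonempty_Ioo.2 ha)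
    exact ⟨t, h2, hS h3⟩

theorem hlen_of (h : Irr U T) (w : WinData T z L R) (u : ℝ) (s : Bool) (i : Fin 6) :
    (bif s then wr L R u i else wn L R u i).2 ≤ 3 := by
  obtain ⟨v, -, hv⟩ := win_gen h w u s
  rw [← congrFun hv i]
  exact w.len v i

theorem hcov_of (h : Irr U T) (w : WinData T z L R) (u : ℝ) (s : Bool) (m : ZMod 6) :
    ∃ i : Fin 6, ∃ d : Fin 3, d.val < (bif s then wr L R u i else wn L R u i).2 ∧
      (bif s then wr L R u i else wn L R u i).1 + d.val + 1 = m := by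
  obtain ⟨v, hG, hv⟩ := win_gen h w u s
  obtain ⟨i, hi⟩ := cov_st w hG.2 (⟨m.val, ZMod.val_lt m⟩ : Fin 6)
  have hi : onw (wn L R v i) ((m.val : ℕ) : ZMod 6) := hi
  rw [ZMod.natCast_zmod_val] at hi
  have h3 := w.len v i
  have e := congrFun hv i
  refine ⟨i, ⟨(m - (wn L R v i).1 - 1).val, ?_⟩, ?_, ?_⟩
  · unfold onw at hi; omega
  · rw [← e]; unfold onw at hi; exact hi
  · rw [← e]
    simp only
    rw [ZMod.natCast_zmod_val]
    ring

/-- the letters of a held column -/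
theorem io_of_hold (hf : Fr U T u F) (hle : ∀ i, L i ≤ R i) (w : WinData T z L R)
    (hD : ∀ i, L i ∈ H266.HD U z i ∧ R i ∈ H266.HD U z i) {s : Bool} {g : Cl}
    (hg : ∀ᶠ v in (F s : Filter ℝ), v ∈ WinData.G T z L R ∧ Hold T z L R g v) (j : Fin 6) :
    Inn (F s) T z (j.val : ℝ) (g j).1 ∧ Out (F s) T z (j.val : ℝ) (g j).2 := by
  have hH := hon_of hle hD
  have m1 : (g j).1 ∈ H437.lt (F s) T z (j.val : ℝ) := hg.mono fun v hv => (hv.2 j).1
  have m2 : (g j).2 ∈ H437.lt (F s) T z (j.val : ℝ) := hg.mono fun v hv => (hv.2 j).2.1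
  obtain ⟨v, ⟨hG, hv⟩⟩ := hg.exists
  have hne : (g j).1 ≠ (g j).2 := fun e =>
    H429.not_inn_out (hv j).2.2.1 (by rw [e]; exact (hv j).2.2.2)
  constructor
  · rcases inn_or_out hf.irr (hf.lc s z _) m1 m2 hne with h1 | h1
    · exact h1
    · exfalso
      obtain ⟨v, ⟨hG, hv⟩, h2⟩ := (hg.and (show ∀ᶠ v in (F s : Filter ℝ),
        OccIn T (pt z (v + (j.val : ℝ))) {x | 1 < dist x z} (g j).1 from h1)).exists
      refine no_out (hH _) ?_ (outN_of_occ hf.irr h2)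
      obtain ⟨n, h4, h5⟩ := (w.inn_iff (t := v) (i := (g j).1) (j := (j.val : ℤ))).1
        (by simpa using (hv j).2.2.1)
      rw [← H429.sc_int, H429.le_sc] at h4
      rw [← H429.sc_int, H429.sc_lt] at h5
      push_cast at h4 h5
      refine ⟨n, lt_of_le_of_ne (by linarith) fun he => ?_, by linarith⟩
      exact hG.2 ⟨(g j).1, (j.val : ℤ) - 3 - 6 * n, Or.inl (by push_cast; linarith)⟩
  · rcases inn_or_out hf.irr (hf.lc s z _) m2 m1 hne.symm with h1 | h1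
    · exfalso
      obtain ⟨v, ⟨hG, hv⟩, h2⟩ := (hg.and (show ∀ᶠ v in (F s : Filter ℝ),
        OccIn T (pt z (v + (j.val : ℝ))) {x | dist x z < 1} (g j).2 from h1)).exists
      refine no_inn (hH _) ?_ (innN_of_occ hf.irr h2)
      obtain ⟨n, h4, h5⟩ := (w.out_iff (t := v) (i := (g j).2) (j := (j.val : ℤ))).1
        (by simpa using (hv j).2.2.2)
      rw [← H429.sc_int, H429.le_sc] at h4
      rw [← H429.sc_int, H429.sc_lt] at h5
      push_cast at h4 h5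
      refine ⟨n, lt_of_le_of_ne (by linarith) fun he => ?_, by linarith⟩
      exact hG.2 ⟨(g j).2, (j.val : ℤ) - 6 * n, Or.inl (by push_cast; linarith)⟩
    · exact h1

/-- the column with the code `p`, renamed and turned -/
def rcol (σ : Equiv.Perm (Fin 6)) (r : Fin 6) (p : ℕ) : Cl := fun j =>
  (σ (dcol p (j + r)).1, σ (dcol p (j + r)).2)

/-- the rules at a time of the line -/
theorem low_at (h : Irr U T)
    (hmin : ∀ z, 4 ≤ (T z).ncard → ∀ s, s ⊆ T z → s ≠ T z →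
      ¬ ∀ᶠ w in 𝓝 z, ∃ i ∈ s, w ∈ U i ∨ (w ∈ XX U ∧ i ∈ Pal U w))
    (hz : ∀ i, i ∈ T z) (w : WinData T z L R) (hs : SideH T z L R)
    (hD : ∀ i, L i ∈ H266.HD U z i ∧ R i ∈ H266.HD U z i) (hf : Fr U T u F) :
    LOW (atm U T z L R u F) :=
  low_of hf hmin hz w.le w.lt hD (hlen_of h w u) (hcov_of h w u) (hin_of hf w hs hD)
    (hout_of hf w hs hD) (hio_of hf w hs hD)

theorem G_open : IsOpen (WinData.G T z L R) :=
  (WinData.L0_open T z).sdiff (WinData.M_closed L R)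

/-- **a pair of the table is impossible**, no turn -/
theorem kill_hold0 (h : Irr U T)
    (hmin : ∀ z, 4 ≤ (T z).ncard → ∀ s, s ⊆ T z → s ≠ T z →
      ¬ ∀ᶠ w in 𝓝 z, ∃ i ∈ s, w ∈ U i ∨ (w ∈ XX U ∧ i ∈ Pal U w))
    (hz : ∀ i, i ∈ T z) (w : WinData T z L R) (hs : SideH T z L R)
    (hD : ∀ i, L i ∈ H266.HD U z i ∧ R i ∈ H266.HD U z i) (σ : Equiv.Perm (Fin 6))
    {p q g : ℕ} (hx : ∃ t ∈ Z.tabs, ∃ l ∈ t, (p, q, g) ∈ l) {a b : Cl}
    (ha : ∀ j, a j = (σ (dcol p j).1, σ (dcol p j).2))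
    (hb : ∀ j, b j = (σ (dcol q j).1, σ (dcol q j).2))
    (hp : ∃ᶠ v in 𝓝[<] u, v ∈ WinData.G T z L R ∧ Hold T z L R a v)
    (hq : ∃ᶠ v in 𝓝[>] u, v ∈ WinData.G T z L R ∧ Hold T z L R b v) : False := by
  have key : ∀ (g : Cl) (v : ℝ), (v ∈ WinData.G T z L R ∧ Hold T z L R g v) →
      ∀ᶠ v' in 𝓝 v, v' ∈ {v | v ∈ WinData.G T z L R ∧ Hold T z L R g v} := by
    intro g v hv
    filter_upwards [G_open.mem_nhds hv.1, hold_const (A := g) hv.1] with v' h1 h2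
    exact ⟨h1, h2.2 hv.2⟩
  obtain ⟨F, hf, h2, h3⟩ := exists_fr_of (u := u) h (hp.mono (key a)) (hq.mono (key b))
  have hlow := low_at h hmin hz w hs hD hf
  have e0 : lK z (fun _ : Fin 1 => u) (q1 0 0) = z := by rw [lK_q1, lp_zero]
  refine Z.kill (hlow.perm σ) hx (fun j => ?_) fun j => ?_
  · have h4 := io_of_hold (s := false) hf w.le w hD h2 j
    rw [ha] at h4
    constructor
    · show Inn (F false) T (lK z (fun _ : Fin 1 => u) (q1 0 0)) (j.val : ℝ) (σ (dcol p j).1)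
      rw [e0]; exact h4.1
    · show Out (F false) T (lK z (fun _ : Fin 1 => u) (q1 0 0)) (j.val : ℝ) (σ (dcol p j).2)
      rw [e0]; exact h4.2
  · have h4 := io_of_hold (s := true) hf w.le w hD h3 j
    rw [hb] at h4
    constructor
    · show Inn (F true) T (lK z (fun _ : Fin 1 => u) (q1 0 0)) (j.val : ℝ) (σ (dcol q j).1)
      rw [e0]; exact h4.1
    · show Out (F true) T (lK z (fun _ : Fin 1 => u) (q1 0 0)) (j.val : ℝ) (σ (dcol q j).2)
      rw [e0]; exact h4.2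

/-- turning a frequently held column by `k` slots -/
theorem freq_turn {l : ℝ → Filter ℝ} (hl : l = (fun u => 𝓝[<] u) ∨ l = (fun u => 𝓝[>] u))
    (g : Cl) : ∀ (k : ℕ) (u : ℝ), (∃ᶠ v in l u, v ∈ WinData.G T z L R ∧ Hold T z L R g v) →
      ∃ᶠ v in l (u + k), v ∈ WinData.G T z L R ∧ Hold T z L R (sh^[k] g) v := by
  intro k
  induction k with
  | zero => intro u h; simpa using h
  | succ k ih =>
    intro u h
    have h1 := ih u h
    rw [Function.iterate_succ', Nat.cast_succ, ← add_assoc]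
    refine freq_add (p := fun v => v ∈ WinData.G T z L R ∧ Hold T z L R ((sh ∘ sh^[k]) g) v)
      hl (c := 1) (h1.mono fun v hv => ?_)
    exact ⟨WinData.G_turn hv.1, (hold_turn T z L R _ v).2 hv.2⟩

theorem f6_succ (k : ℕ) : f6 (k + 1) = 1 + f6 k := by
  apply Fin.ext
  show (k + 1) % 6 = (1 + k % 6) % 6
  omega

theorem sh_iter (g : Cl) (k : ℕ) : sh^[k] g = fun j => g (j + f6 k) := by
  induction k with
  | zero =>
    funext j
    have e : ∀ j : Fin 6, j + f6 0 = j := by decide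
    rw [e]
    rfl
  | succ k ih =>
    rw [Function.iterate_succ', Function.comp_apply, ih]
    funext j
    show g (j + 1 + f6 k) = g (j + f6 (k + 1))
    rw [f6_succ, add_assoc]

/-- **a pair of the table is impossible**, renamed and turned -/
theorem kill_hold (h : Irr U T)
    (hmin : ∀ z, 4 ≤ (T z).ncard → ∀ s, s ⊆ T z → s ≠ T z →
      ¬ ∀ᶠ w in 𝓝 z, ∃ i ∈ s, w ∈ U i ∨ (w ∈ XX U ∧ i ∈ Pal U w))
    (hz : ∀ i, i ∈ T z) (w : WinData T z L R) (hs : SideH T z L R)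
    (hD : ∀ i, L i ∈ H266.HD U z i ∧ R i ∈ H266.HD U z i) (σ : Equiv.Perm (Fin 6))
    (r : Fin 6) {p q g : ℕ} (hx : ∃ t ∈ Z.tabs, ∃ l ∈ t, (p, q, g) ∈ l)
    (hp : ∃ᶠ v in 𝓝[<] u, v ∈ WinData.G T z L R ∧ Hold T z L R (rcol σ r p) v)
    (hq : ∃ᶠ v in 𝓝[>] u, v ∈ WinData.G T z L R ∧ Hold T z L R (rcol σ r q) v) : False := by
  have e : ∀ r j : Fin 6, j + f6 (-r).val + r = j := by decide
  refine kill_hold0 (u := u + ((-r).val : ℕ)) h hmin hz w hs hD σ hx (fun j => ?_) (fun j => ?_)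
    (freq_turn (Or.inl rfl) _ (-r).val u hp) (freq_turn (Or.inr rfl) _ (-r).val u hq)
  · rw [sh_iter]
    show rcol σ r p (j + f6 (-r).val) = _
    unfold rcol
    rw [e]
  · rw [sh_iter]
    show rcol σ r q (j + f6 (-r).val) = _
    unfold rcol
    rw [e]

/-- the pairs of the table, renamed and turned -/
def Kld (a b : Cl) : Prop :=
  ∃ (σ : Equiv.Perm (Fin 6)) (r : Fin 6) (p q g : ℕ), (∃ t ∈ Z.tabs, ∃ l ∈ t, (p, q, g) ∈ l) ∧
    a = rcol σ r p ∧ b = rcol σ r q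

/-- a state is held -/
theorem hold_st (w : WinData T z L R) {v : ℝ} (hv : v ∈ WinData.G T z L R) :
    Hold T z L R (WinData.st T z L R v).1 v := by
  intro j
  have h1 := w.col_spec hv.1 j
  first
    | exact ⟨h1.1, h1.2.1, h1.2.2.2.1, h1.2.2.2.2⟩
    | exact ⟨by rw [h1.1]; exact Or.inl rfl, by rw [h1.1]; exact Or.inr rfl, h1.2.2.1,
        h1.2.2.2⟩

/-- **no event of the table**, honest ends of the windows -/
theorem kill_LSH (h : Irr U T)
    (hmin : ∀ z, 4 ≤ (T z).ncard → ∀ s, s ⊆ T z → s ≠ T z →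
      ¬ ∀ᶠ w in 𝓝 z, ∃ i ∈ s, w ∈ U i ∨ (w ∈ XX U ∧ i ∈ Pal U w))
    (hz : ∀ i, i ∈ T z) (w : WinData T z L R) (hs : SideH T z L R)
    (hD : ∀ i, L i ∈ H266.HD U z i ∧ R i ∈ H266.HD U z i) :
    ∀ u, ∀ s ∈ LS T z L R u, ∀ s' ∈ RS T z L R u, ¬ Kld s.1 s'.1 := by
  rintro u s h1 s' h2 ⟨σ, r, p, q, g, hx, e1, e2⟩
  have h1' : ∃ᶠ v in 𝓝[<] u, v ∈ WinData.G T z L R ∧ WinData.st T z L R v = s := h1
  have h2' : ∃ᶠ v in 𝓝[>] u, v ∈ WinData.G T z L R ∧ WinData.st T z L R v = s' := h2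
  refine kill_hold h hmin hz w hs hD σ r hx (u := u) (h1'.mono fun v hv => ⟨hv.1, ?_⟩)
    (h2'.mono fun v hv => ⟨hv.1, ?_⟩)
  · rw [← e1, ← hv.2]; exact hold_st w hv.1
  · rw [← e2, ← hv.2]; exact hold_st w hv.1

/-- **no event of the table** -/
theorem kill_LS (h : Irr U T)
    (hmin : ∀ z, 4 ≤ (T z).ncard → ∀ s, s ⊆ T z → s ≠ T z →
      ¬ ∀ᶠ w in 𝓝 z, ∃ i ∈ s, w ∈ U i ∨ (w ∈ XX U ∧ i ∈ Pal U w))
    (hz : ∀ i, i ∈ T z) (w : WinData T z L R) (hs : SideH T z L R)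
    (hD : ∀ i, L i ∈ closure (Dr U z i) ∧ R i ∈ closure (Dr U z i)) :
    ∀ u, ∀ s ∈ LS T z L R u, ∀ s' ∈ RS T z L R u, ¬ Kld s.1 s'.1 :=
  kill_LSH h hmin hz w hs fun i => ⟨HD_of_Dr h.mx (hD i).1, HD_of_Dr h.mx (hD i).2⟩

end Vale.Agent.P032.H184
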