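import Vale.Agent.P032.H184.LO

/-!
# P032: the clauses of the letter rules

One theorem for each family: the clause is true under `nu A` for every model `A` of the rules `LOW`.
-/

namespace Vale.Agent.P032.H184

open Vale.Agent.P032.H859.Rup

variable {A : At}

/-! ### Small facts -/

theorem f6_ne {a b : ℕ} (ha : a < 6) (hb : b < 6) (h : a ≠ b) : f6 a ≠ f6 b := by
  intro e
  have := congrArg Fin.val e
  simp only [f6] at this
  omega

theorem f6_val (i : Fin 6) : f6 i.val = i := Fin.ext (Nat.mod_eq_of_lt i.2)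

/-- the colour `i` as a number -/
theorem ex6 {Q : Fin 6 → Prop} (h : ∃ i, Q i) : ∃ c, c < 6 ∧ Q (f6 c) := by
  obtain ⟨i, hi⟩ := h
  exact ⟨i.val, i.2, by rwa [f6_val]⟩

theorem f6_ne' {c d : ℕ} (h : f6 c ≠ f6 d) : c ≠ d := fun e => h (by rw [e])

theorem f6_add_one {k : ℕ} (hk : k < 6) : f6 ((k + 1) % 6) = f6 k + 1 := by
  interval_cases k <;> rfl

theorem f6_add_three {k : ℕ} (hk : k < 6) : f6 ((k + 3) % 6) = f6 k + 3 := by
  interval_cases k <;> rfl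

theorem bb_sub {s : ℕ} (hs : s < 2) : bb (1 - s) = !bb s := by
  interval_cases s <;> rfl

theorem bb_ex (b : Bool) : ∃ s, s < 2 ∧ bb s = b := by
  cases b
  · exact ⟨0, by omega, rfl⟩
  · exact ⟨1, by omega, rfl⟩

theorem px0 : px 0 = 0 ∧ py 0 = 0 := ⟨rfl, rfl⟩

/-- the six colours in a mask -/
def fs (S : ℕ) : Finset (Fin 6) := Finset.univ.filter fun i => S.testBit i.val
def pc (S : ℕ) : ℕ := ([0, 1, 2, 3, 4, 5].filter fun i => S.testBit i).length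

theorem beq_false {a b : ℕ} : Nat.beq a b = false ↔ a ≠ b := by
  constructor
  · intro h e; subst e; rw [Nat.beq_refl] at h; cases h
  · intro h
    cases hb : Nat.beq a b
    · rfl
    · exact absurd (Nat.eq_of_beq_eq_true hb) h

theorem card_fs : ∀ S < 64, (fs S).card = pc S := by decide

def ne (c d : ℕ) : Bool := !Nat.beq d c

theorem ne_iff {c d : ℕ} : ne c d = true ↔ d ≠ c := by
  unfold ne
  rw [Bool.not_eq_true', beq_false]

/-! ### The families -/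

section
variable (h : LOW A) {p k m s s2 c d e g S n : ℕ}
include h

theorem f_six (hc : c < 6) : CL (nu A) [P (vT 0 c)] := by
  rw [CL_cons, lit_P, nuT (by omega) hc]; exact Or.inl (h.six _)

theorem f_memb (hp : p < 19) (hk : k < 6) (hs : s < 2) (hc : c < 6) (hu : nb p k < 19) :
    CL (nu A) [N (vL p k s c), P (vT (nb p k) c)] := by
  rw [CL_cons, CL_cons, lit_N, lit_P, nuL hp hk hs hc, nuT hu hc, (nb_spec p hp k hk hu).1,
    (nb_spec p hp k hk hu).2]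
  by_cases h1 : A.LT (bb s) (px p) (py p) (f6 k) (f6 c)
  · exact Or.inr (Or.inl (h.memb _ _ _ _ _ h1))
  · exact Or.inl h1

theorem f_neI (hp : p < 19) (hk : k < 6) (hs : s < 2) :
    CL (nu A) (cs (fun _ => true) fun c => P (vI p k s c)) := by
  rw [CL_cs]
  obtain ⟨c, hc, h1⟩ := ex6 (h.neI (bb s) (px p) (py p) (f6 k))
  exact ⟨c, hc, rfl, by rw [lit_P, nuI hp hk hs hc]; exact h1⟩

theorem f_neO (hp : p < 19) (hk : k < 6) (hs : s < 2) :
    CL (nu A) (cs (fun _ => true) fun c => P (vO p k s c)) := by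
  rw [CL_cs]
  obtain ⟨c, hc, h1⟩ := ex6 (h.neO (bb s) (px p) (py p) (f6 k))
  exact ⟨c, hc, rfl, by rw [lit_P, nuO hp hk hs hc]; exact h1⟩

theorem f_IL (hp : p < 19) (hk : k < 6) (hs : s < 2) (hc : c < 6) :
    CL (nu A) [N (vI p k s c), P (vL p k s c)] := by
  rw [CL_cons, CL_cons, lit_N, lit_P, nuI hp hk hs hc, nuL hp hk hs hc]
  by_cases h1 : A.IN (bb s) (px p) (py p) (f6 k) (f6 c)
  · exact Or.inr (Or.inl (h.inL _ _ _ _ _ h1))
  · exact Or.inl h1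

theorem f_OL (hp : p < 19) (hk : k < 6) (hs : s < 2) (hc : c < 6) :
    CL (nu A) [N (vO p k s c), P (vL p k s c)] := by
  rw [CL_cons, CL_cons, lit_N, lit_P, nuO hp hk hs hc, nuL hp hk hs hc]
  by_cases h1 : A.OUT (bb s) (px p) (py p) (f6 k) (f6 c)
  · exact Or.inr (Or.inl (h.outL _ _ _ _ _ h1))
  · exact Or.inl h1

theorem f_LIO (hp : p < 19) (hk : k < 6) (hs : s < 2) (hc : c < 6) :
    CL (nu A) [N (vL p k s c), P (vI p k s c), P (vO p k s c)] := by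
  rw [CL_cons, CL_cons, CL_cons, lit_N, lit_P, lit_P, nuI hp hk hs hc, nuL hp hk hs hc,
    nuO hp hk hs hc]
  by_cases h1 : A.LT (bb s) (px p) (py p) (f6 k) (f6 c)
  · rcases h.lio _ _ _ _ _ h1 with h2 | h2
    · exact Or.inr (Or.inl h2)
    · exact Or.inr (Or.inr (Or.inl h2))
  · exact Or.inl h1

theorem f_pair (hp : p < 19) (hk : k < 6) (hs : s < 2) (hc : c < 6) :
    CL (nu A) (N (vL p k s c) :: N (vT p c) :: cs (ne c) fun d => P (vL p k s d)) := by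
  rw [CL_cons, CL_cons, lit_N, lit_N, nuL hp hk hs hc, nuT hp hc, CL_cs]
  by_cases h1 : A.LT (bb s) (px p) (py p) (f6 k) (f6 c)
  · by_cases h2 : A.TT (px p) (py p) (f6 c)
    · obtain ⟨d, hd, h3, h4⟩ := ex6 (h.pair2 _ _ _ _ _ h1 h2)
      exact Or.inr (Or.inr ⟨d, hd, ne_iff.2 (f6_ne' h3), by rw [lit_P, nuL hp hk hs hd]; exact h4⟩)
    · exact Or.inr (Or.inl h2)
  · exact Or.inl h1

theorem f_sub4 (hp : p < 19) (hk : k < 6) (hs : s < 2) :
    CL (nu A) (P (vG p 4) :: cs (fun _ => true) fun c => P (vX p k s c)) := by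
  rw [CL_cons, lit_P, nuG hp (by omega), CL_cs]
  rcases h.sub4 (bb s) (px p) (py p) (f6 k) with h1 | h1
  · exact Or.inl h1
  · obtain ⟨c, hc, h2⟩ := ex6 h1
    exact Or.inr ⟨c, hc, rfl, by rw [lit_P, nuX hp hk hs hc]; exact h2⟩

theorem f_sideIO (hk : k < 6) (hs : s < 2) (hc : c < 6) :
    CL (nu A) [N (vI 0 k s c), N (vO 0 k s c)] := by
  rw [CL_cons, CL_cons, lit_N, lit_N, nuI (by omega) hk hs hc, nuO (by omega) hk hs hc, px0.1,
    px0.2]
  by_cases h1 : A.IN (bb s) 0 0 (f6 k) (f6 c)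
  · exact Or.inr (Or.inl (h.sideIO _ _ _ h1))
  · exact Or.inl h1

theorem f_defM (hp : p < 19) (hk : k < 6) (hs : s < 2) (hc : c < 6) (hd : d < 6) (hcd : c ≠ d) :
    CL (nu A) (N (vL p k s c) :: N (vL p k s d) :: N (vT p c) :: N (vT p d) :: P (vM p c d) ::
      cs (fun e => ne c e && ne d e) fun e => P (vL p k s e)) := by
  rw [CL_cons, CL_cons, CL_cons, CL_cons, CL_cons, lit_N, lit_N, lit_N, lit_N, lit_P,
    nuL hp hk hs hc, nuL hp hk hs hd, nuT hp hc, nuT hp hd, nuM hp hc hd, CL_cs]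
  by_contra hcon
  push Not at hcon
  obtain ⟨h1, h2, h3, h4, h5, h6⟩ := hcon
  rcases h.defM _ _ _ _ _ _ (f6_ne hc hd hcd) h1 h2 h3 h4 with h7 | h7
  · exact h5 h7
  · obtain ⟨e, he, h8, h9, h10⟩ := ex6 h7
    refine h6 e he ?_ (by rw [lit_P, nuL hp hk hs he]; exact h10)
    rw [Bool.and_eq_true]
    exact ⟨ne_iff.2 (f6_ne' h8), ne_iff.2 (f6_ne' h9)⟩

omit h in
/-- the form of the strong sweeps -/
theorem sw_aux {X Y : Fin 6 → Prop} {fL fO : ℕ → ℕ} {ν : ℕ → Prop} (S : ℕ)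
    (hL : ∀ c < 6, (ν (fL c) ↔ X (f6 c))) (hO : ∀ c < 6, (ν (fO c) ↔ Y (f6 c)))
    (hx : ∃ i, ¬ X i ∧ Y i) :
    CL ν (cs (fun c => S.testBit c) (fun c => N (fL c)) ++
      cs (fun c => !S.testBit c) fun c => P (fO c)) := by
  obtain ⟨c, hc, h1, h2⟩ := ex6 hx
  rw [CL_append, CL_cs, CL_cs]
  cases hb : S.testBit c
  · exact Or.inr ⟨c, hc, by rw [hb]; rfl, by rw [lit_P, hO c hc]; exact h2⟩
  · exact Or.inl ⟨c, hc, hb, by rw [lit_N, hL c hc]; exact h1⟩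

theorem f_sweepO (hp : p < 19) (hk : k < 6) (hm : m < 6) (hs : s < 2) (hs2 : s2 < 2)
    (hu : nb p k < 19) (hw : swO (bb s) (f6 k) (f6 m) = true) :
    CL (nu A) (cs (fun c => S.testBit c) (fun c => N (vL p k s c)) ++
      cs (fun c => !S.testBit c) fun c => P (vO (nb p k) m s2 c)) := by
  refine sw_aux S (fun c hc => nuL hp hk hs hc) (fun c hc => nuO hu hm hs2 hc) ?_
  rw [(nb_spec p hp k hk hu).1, (nb_spec p hp k hk hu).2]
  exact h.sweepO _ _ _ _ _ hw _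

theorem f_sweepI (hp : p < 19) (hk : k < 6) (hm : m < 6) (hs : s < 2) (hs2 : s2 < 2)
    (hu : nb p k < 19) (hw : swI (bb s) (f6 k) (f6 m) = true) :
    CL (nu A) (cs (fun c => S.testBit c) (fun c => N (vL p k s c)) ++
      cs (fun c => !S.testBit c) fun c => P (vI (nb p k) m s2 c)) := by
  refine sw_aux S (fun c hc => nuL hp hk hs hc) (fun c hc => nuI hu hm hs2 hc) ?_
  rw [(nb_spec p hp k hk hu).1, (nb_spec p hp k hk hu).2]
  exact h.sweepI _ _ _ _ _ hw _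

theorem f_wedgeO (hp : p < 19) (hk : k < 6) (hm : m < 6) (hs : s < 2) (hs2 : s2 < 2)
    (hu : nb p k < 19) (hw : (m = k ∧ s2 = s) ∨ (m = (k + 3) % 6 ∧ s2 = 1 - s)) :
    CL (nu A) (cs (fun c => S.testBit c) (fun c => N (vL p k s c)) ++
      cs (fun c => !S.testBit c) fun c => P (vO (nb p k) m s2 c)) := by
  refine sw_aux S (fun c hc => nuL hp hk hs hc) (fun c hc => nuO hu hm hs2 hc) ?_
  rw [(nb_spec p hp k hk hu).1, (nb_spec p hp k hk hu).2]
  rcases hw with ⟨rfl, rfl⟩ | ⟨rfl, rfl⟩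
  · exact h.wedgeO _ _ _ _
  · rw [bb_sub hs, f6_add_three hk]; exact h.wedgeO' _ _ _ _

theorem f_wedgeI (hp : p < 19) (hk : k < 6) (hm : m < 6) (hs : s < 2) (hs2 : s2 < 2)
    (hu : nb p k < 19) (hw : (m = k ∧ s2 = 1 - s) ∨ (m = (k + 3) % 6 ∧ s2 = s)) :
    CL (nu A) (cs (fun c => S.testBit c) (fun c => N (vL p k s c)) ++
      cs (fun c => !S.testBit c) fun c => P (vI (nb p k) m s2 c)) := by
  refine sw_aux S (fun c hc => nuL hp hk hs hc) (fun c hc => nuI hu hm hs2 hc) ?_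
  rw [(nb_spec p hp k hk hu).1, (nb_spec p hp k hk hu).2]
  rcases hw with ⟨rfl, rfl⟩ | ⟨rfl, rfl⟩
  · rw [bb_sub hs]; exact h.wedgeI _ _ _ _
  · rw [f6_add_three hk]; exact h.wedgeI' _ _ _ _

theorem f_sixty (hp : p < 19) (hk : k < 6) (hs : s < 2) (hc : c < 6) :
    CL (nu A) [N (vL p k s c), N (vL p ((k + 1) % 6) s c)] := by
  rw [CL_cons, CL_cons, lit_N, lit_N, nuL hp hk hs hc, nuL hp (Nat.mod_lt _ (by omega)) hs hc,
    f6_add_one hk]
  by_cases h1 : A.LT (bb s) (px p) (py p) (f6 k) (f6 c)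
  · exact Or.inr (Or.inl (h.sixty _ _ _ _ _ h1))
  · exact Or.inl h1

theorem f_product (hp : p < 19) (hk : k < 6) (hm : m < 6) (hs : s < 2) (hc : c < 6)
    (hu : nb p m < 19) : CL (nu A) [N (vL p k s c), N (vL (nb p m) k s c)] := by
  rw [CL_cons, CL_cons, lit_N, lit_N, nuL hp hk hs hc, nuL hu hk hs hc, (nb_spec p hp m hm hu).1,
    (nb_spec p hp m hm hu).2]
  by_cases h1 : A.LT (bb s) (px p) (py p) (f6 k) (f6 c)
  · exact Or.inr (Or.inl (h.product _ _ _ _ _ _ h1))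
  · exact Or.inl h1

end

theorem f_GEa {p n S : ℕ} (hp : p < 19) (hn : n < 8) (hS : S < 64) (h7 : pc S + n = 7) :
    CL (nu A) (N (vG p n) :: cs (fun c => S.testBit c) fun c => P (vT p c)) := by
  rw [CL_cons, lit_N, nuG hp hn, CL_cs]
  by_cases h1 : A.GE (px p) (py p) n
  · by_contra hcon
    push Not at hcon
    obtain ⟨S', h2, h3⟩ := h1
    have h4 : Disjoint S' (fs S) := by
      rw [Finset.disjoint_left]
      intro i hi hi'
      have h5 : S.testBit i.val = true := by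
        unfold fs at hi'
        exact (Finset.mem_filter.1 hi').2
      have h6 := hcon.2 i.val i.2 h5
      rw [lit_P, nuT hp i.2, f6_val] at h6
      exact h6 (h3 i hi)
    have h7' := Finset.card_union_of_disjoint h4
    have h8 : (S' ∪ fs S).card ≤ 6 := by
      have := Finset.card_le_univ (S' ∪ fs S)
      rwa [Fintype.card_fin] at this
    rw [card_fs S hS, h2] at h7'
    omega
  · exact Or.inl h1

theorem f_GEb {p n S : ℕ} (hp : p < 19) (hn : n < 8) (hS : S < 64) (h7 : pc S = n) :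
    CL (nu A) (P (vG p n) :: cs (fun c => S.testBit c) fun c => N (vT p c)) := by
  rw [CL_cons, lit_P, nuG hp hn, CL_cs]
  by_contra hcon
  push Not at hcon
  refine hcon.1 ⟨fs S, by rw [card_fs S hS, h7], fun i hi => ?_⟩
  have h5 : S.testBit i.val = true := by
    unfold fs at hi
    exact (Finset.mem_filter.1 hi).2
  have h6 := hcon.2 i.val i.2 h5
  rw [lit_N, nuT hp i.2, f6_val, not_not] at h6
  exact h6

/-- the unordered pair -/
def vMs (p a b : ℕ) : ℕ := bif Nat.ble a b then vM p a b else vM p b a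

section
variable (h : LOW A) {p k m s s2 c d e g i S n : ℕ}
include h

theorem nuMs {a b : ℕ} (hp : p < 19) (ha : a < 6) (hb : b < 6) :
    nu A (vMs p a b) ↔ A.MM (px p) (py p) (f6 a) (f6 b) := by
  unfold vMs
  cases hb' : Nat.ble a b
  · rw [cond_false, nuM hp hb ha]; exact ⟨h.symM _ _ _ _, h.symM _ _ _ _⟩
  · rw [cond_true, nuM hp ha hb]

theorem f_side4 (hp : p < 19) (hk : k < 6) (hs : s < 2) (hc : c < 6) (hd : d < 6) (he : e < 6)
    (hg : g < 6) (hcd : c ≠ d) (hce : c ≠ e) (hcg : c ≠ g) (hde : d ≠ e) (hdg : d ≠ g)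
    (heg : e ≠ g) :
    CL (nu A) [N (vI p k s c), N (vO p k s c), N (vMs p c d), N (vMs p e g), P (vG p 5)] := by
  rw [CL_cons, CL_cons, CL_cons, CL_cons, CL_cons, lit_N, lit_N, lit_N, lit_N, lit_P,
    nuI hp hk hs hc, nuO hp hk hs hc, nuMs h hp hc hd, nuMs h hp he hg, nuG hp (by omega)]
  by_contra hcon
  push Not at hcon
  obtain ⟨h1, h2, h3, h4, h5, -⟩ := hcon
  exact h5 (h.side4 _ _ _ _ _ _ _ _ (f6_ne hc hd hcd) (f6_ne hc he hce) (f6_ne hc hg hcg)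
    (f6_ne hd he hde) (f6_ne hd hg hdg) (f6_ne he hg heg) h3 h4 h1 h2)

theorem f_M4 (hp : p < 19) (hi : i < 6) (hc : c < 6) (hd : d < 6) (hic : i ≠ c) (hid : i ≠ d)
    (hcd : c ≠ d) : CL (nu A) [P (vG p 5), N (vMs p i c), N (vMs p i d)] := by
  rw [CL_cons, CL_cons, CL_cons, lit_P, lit_N, lit_N, nuG hp (by omega), nuMs h hp hi hc,
    nuMs h hp hi hd]
  by_cases h1 : A.MM (px p) (py p) (f6 i) (f6 c)
  · by_cases h2 : A.MM (px p) (py p) (f6 i) (f6 d)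
    · exact Or.inl (h.mdeg4 _ _ _ _ _ (f6_ne hi hc hic) (f6_ne hi hd hid) (f6_ne hc hd hcd) h1 h2)
    · exact Or.inr (Or.inr (Or.inl h2))
  · exact Or.inr (Or.inl h1)

theorem f_M5 (hp : p < 19) (hi : i < 6) (hc : c < 6) (hd : d < 6) (he : e < 6) (hic : i ≠ c)
    (hid : i ≠ d) (hie : i ≠ e) (hcd : c ≠ d) (hce : c ≠ e) (hde : d ≠ e) :
    CL (nu A) [P (vG p 6), N (vMs p i c), N (vMs p i d), N (vMs p i e)] := by
  rw [CL_cons, CL_cons, CL_cons, CL_cons, lit_P, lit_N, lit_N, lit_N, nuG hp (by omega),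
    nuMs h hp hi hc, nuMs h hp hi hd, nuMs h hp hi he]
  by_cases h1 : A.MM (px p) (py p) (f6 i) (f6 c)
  · by_cases h2 : A.MM (px p) (py p) (f6 i) (f6 d)
    · by_cases h3 : A.MM (px p) (py p) (f6 i) (f6 e)
      · exact Or.inl (h.mdeg5 _ _ _ _ _ _ (f6_ne hi hc hic) (f6_ne hi hd hid) (f6_ne hi he hie)
          (f6_ne hc hd hcd) (f6_ne hc he hce) (f6_ne hd he hde) h1 h2 h3)
      · exact Or.inr (Or.inr (Or.inr (Or.inl h3)))
    · exact Or.inr (Or.inr (Or.inl h2))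
  · exact Or.inr (Or.inl h1)

theorem f_M6 (hp : p < 19) (hi : i < 6) (hc : c < 6) (hd : d < 6) (he : e < 6) (hg : g < 6)
    (hic : i ≠ c) (hid : i ≠ d) (hie : i ≠ e) (hig : i ≠ g) (hcd : c ≠ d) (hce : c ≠ e)
    (hcg : c ≠ g) (hde : d ≠ e) (hdg : d ≠ g) (heg : e ≠ g) :
    CL (nu A) [N (vMs p i c), N (vMs p i d), N (vMs p i e), N (vMs p i g)] := by
  rw [CL_cons, CL_cons, CL_cons, CL_cons, lit_N, lit_N, lit_N, lit_N,
    nuMs h hp hi hc, nuMs h hp hi hd, nuMs h hp hi he, nuMs h hp hi hg]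
  by_cases h1 : A.MM (px p) (py p) (f6 i) (f6 c)
  · by_cases h2 : A.MM (px p) (py p) (f6 i) (f6 d)
    · by_cases h3 : A.MM (px p) (py p) (f6 i) (f6 e)
      · exact Or.inr (Or.inr (Or.inr (Or.inl (h.mdeg6 _ _ _ _ _ _ _ (f6_ne hi hc hic)
          (f6_ne hi hd hid) (f6_ne hi he hie) (f6_ne hi hg hig) (f6_ne hc hd hcd)
          (f6_ne hc he hce) (f6_ne hc hg hcg) (f6_ne hd he hde) (f6_ne hd hg hdg)
          (f6_ne he hg heg) h1 h2 h3))))
      · exact Or.inr (Or.inr (Or.inl h3))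
    · exact Or.inr (Or.inl h2)
  · exact Or.inl h1

theorem f_K23 (hp : p < 19) (hi : i < 6) (hg : g < 6) (hc : c < 6) (hd : d < 6) (he : e < 6)
    (hig : i ≠ g) (hcd : c ≠ d) (hce : c ≠ e) (hde : d ≠ e) (hic : i ≠ c) (hid : i ≠ d)
    (hie : i ≠ e) (hgc : g ≠ c) (hgd : g ≠ d) (hge : g ≠ e) :
    CL (nu A) [N (vMs p i c), N (vMs p i d), N (vMs p i e), N (vMs p g c), N (vMs p g d),
      N (vMs p g e)] := by
  rw [CL_cons, CL_cons, CL_cons, CL_cons, CL_cons, CL_cons, lit_N, lit_N, lit_N, lit_N, lit_N,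
    lit_N, nuMs h hp hi hc, nuMs h hp hi hd, nuMs h hp hi he, nuMs h hp hg hc, nuMs h hp hg hd,
    nuMs h hp hg he]
  by_contra hcon
  push Not at hcon
  obtain ⟨h1, h2, h3, h4, h5, h6, -⟩ := hcon
  exact h.k23 _ _ _ _ _ _ _ (f6_ne hi hg hig) (f6_ne hc hd hcd) (f6_ne hc he hce)
    (f6_ne hd he hde) (f6_ne hi hc hic) (f6_ne hi hd hid) (f6_ne hi he hie) (f6_ne hg hc hgc)
    (f6_ne hg hd hgd) (f6_ne hg he hge) h1 h2 h3 h4 h5 h6

theorem f_C5 (hp : p < 19) (hi : i < 6) (hg : g < 6) (hc : c < 6) (hd : d < 6)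
    (hig : i ≠ g) (hcd : c ≠ d) (hic : i ≠ c) (hid : i ≠ d) (hgc : g ≠ c) (hgd : g ≠ d) :
    CL (nu A) [P (vG p 6), N (vMs p i c), N (vMs p i d), N (vMs p g c), N (vMs p g d)] := by
  rw [CL_cons, CL_cons, CL_cons, CL_cons, CL_cons, lit_P, lit_N, lit_N, lit_N, lit_N,
    nuG hp (by omega), nuMs h hp hi hc, nuMs h hp hi hd, nuMs h hp hg hc, nuMs h hp hg hd]
  by_contra hcon
  push Not at hcon
  obtain ⟨h0, h1, h2, h3, h4, -⟩ := hcon
  exact h0 (h.c4 _ _ _ _ _ _ (f6_ne hi hg hig) (f6_ne hc hd hcd) (f6_ne hi hc hic)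
    (f6_ne hi hd hid) (f6_ne hg hc hgc) (f6_ne hg hd hgd) h1 h2 h3 h4)

theorem f_notsub (hp : p < 19) (hk : k < 6) :
    CL (nu A) (P (vG p 4) :: cs (fun _ => true) fun c => P (vD p k c)) := by
  rw [CL_cons, lit_P, nuG hp (by omega), CL_cs]
  rcases h.notsub (px p) (py p) (f6 k) with h1 | h1
  · exact Or.inl h1
  · obtain ⟨c, hc, h2⟩ := ex6 h1
    exact Or.inr ⟨c, hc, rfl, by rw [lit_P, nuD hp hk hc]; exact h2⟩

theorem f_third (hp : p < 19) (hk : k < 6) (hm : m < 6) (hc : c < 6) (hu : nb p k < 19)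
    (hu2 : nb (nb p k) m < 19) (hmk : m ≠ k) (hmk' : m ≠ (k + 3) % 6) :
    CL (nu A) (P (vG p 4) :: N (vT (nb (nb p k) m) c) :: cs (ne c) fun d => P (vD p k d)) := by
  rw [CL_cons, CL_cons, lit_P, lit_N, nuG hp (by omega), nuT hu2 hc, CL_cs,
    (nb_spec _ hu m hm hu2).1, (nb_spec _ hu m hm hu2).2, (nb_spec p hp k hk hu).1,
    (nb_spec p hp k hk hu).2]
  by_cases h1 : A.TT (px p + dx (f6 k) + dx (f6 m)) (py p + dy (f6 k) + dy (f6 m)) (f6 c)
  · have h3 : f6 m ≠ f6 k + 3 := by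
      rw [← f6_add_three hk]; exact f6_ne hm (Nat.mod_lt _ (by omega)) hmk'
    rcases h.third (px p) (py p) (f6 k) (f6 m) (f6 c) (f6_ne hm hk hmk) h3 h1 with h2 | h2
    · exact Or.inl h2
    · obtain ⟨d, hd, h4, h5⟩ := ex6 h2
      exact Or.inr (Or.inr ⟨d, hd, ne_iff.2 (f6_ne' h4), by rw [lit_P, nuD hp hk hd]; exact h5⟩)
  · exact Or.inr (Or.inl h1)

theorem f_lemB (hp : p < 19) (hk : k < 6) (hm : m < 6) (hc : c < 6) (hd : d < 6)
    (hu : nb p k < 19) (hu2 : nb p m < 19) (hmk : m ≠ k) (hmk' : m ≠ (k + 3) % 6) (hcd : c ≠ d) :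
    CL (nu A) (N (vT (nb p k) c) :: N (vT (nb p m) d) ::
      cs (fun e => ne c e && ne d e) fun e => P (vT p e)) := by
  rw [CL_cons, CL_cons, lit_N, lit_N, nuT hu hc, nuT hu2 hd, CL_cs,
    (nb_spec p hp m hm hu2).1, (nb_spec p hp m hm hu2).2, (nb_spec p hp k hk hu).1,
    (nb_spec p hp k hk hu).2]
  by_cases h1 : A.TT (px p + dx (f6 k)) (py p + dy (f6 k)) (f6 c)
  · by_cases h2 : A.TT (px p + dx (f6 m)) (py p + dy (f6 m)) (f6 d)
    · have h3 : f6 m ≠ f6 k + 3 := by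
        rw [← f6_add_three hk]; exact f6_ne hm (Nat.mod_lt _ (by omega)) hmk'
      obtain ⟨e, he, h4, h5, h6⟩ := ex6 (h.lemB (px p) (py p) (f6 k) (f6 m) (f6 c) (f6 d)
        (f6_ne hm hk hmk) h3 (f6_ne hc hd hcd) h1 h2)
      refine Or.inr (Or.inr ⟨e, he, ?_, by rw [lit_P, nuT hp he]; exact h6⟩)
      rw [Bool.and_eq_true]
      exact ⟨ne_iff.2 (f6_ne' h4), ne_iff.2 (f6_ne' h5)⟩
    · exact Or.inr (Or.inl h2)
  · exact Or.inl h1

end

theorem f_DT {p k c : ℕ} (hp : p < 19) (hk : k < 6) (hc : c < 6) (hu : nb p k < 19) :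
    CL (nu A) [N (vD p k c), P (vT (nb p k) c)] := by
  rw [CL_cons, CL_cons, lit_N, lit_P, nuD hp hk hc, nuT hu hc, (nb_spec p hp k hk hu).1,
    (nb_spec p hp k hk hu).2]
  by_cases h1 : A.TT (px p + dx (f6 k)) (py p + dy (f6 k)) (f6 c)
  · exact Or.inr (Or.inl h1)
  · exact Or.inl fun h2 => h1 h2.1

theorem f_DX {p k c : ℕ} (hp : p < 19) (hk : k < 6) (hc : c < 6) :
    CL (nu A) [N (vD p k c), N (vT p c)] := by
  rw [CL_cons, CL_cons, lit_N, lit_N, nuD hp hk hc, nuT hp hc]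
  by_cases h1 : A.TT (px p) (py p) (f6 c)
  · exact Or.inl fun h2 => h2.2 h1
  · exact Or.inr (Or.inl h1)

theorem f_XL {p k s c : ℕ} (hp : p < 19) (hk : k < 6) (hs : s < 2) (hc : c < 6) :
    CL (nu A) [N (vX p k s c), P (vL p k s c)] := by
  rw [CL_cons, CL_cons, lit_N, lit_P, nuX hp hk hs hc, nuL hp hk hs hc]
  by_cases h1 : A.LT (bb s) (px p) (py p) (f6 k) (f6 c)
  · exact Or.inr (Or.inl h1)
  · exact Or.inl fun h2 => h1 h2.1

theorem f_XT {p k s c : ℕ} (hp : p < 19) (hk : k < 6) (hs : s < 2) (hc : c < 6) :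
    CL (nu A) [N (vX p k s c), N (vT p c)] := by
  rw [CL_cons, CL_cons, lit_N, lit_N, nuX hp hk hs hc, nuT hp hc]
  by_cases h1 : A.TT (px p) (py p) (f6 c)
  · exact Or.inl fun h2 => h2.2 h1
  · exact Or.inr (Or.inl h1)

/-! ### The windows -/

def innB (x k : ℕ) : Bool := Nat.ble ((x / 4 + 9 - k) % 6 + x % 4) 2
def outB (x k : ℕ) : Bool := Nat.ble ((x / 4 + 6 - k) % 6 + x % 4) 2
def outcB (x y k : ℕ) : Bool :=
  Nat.ble ((x / 4 + 6 - k) % 6 + (bif Nat.beq (y / 4) (x / 4) then y % 4 + 1 else y % 4)) 3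
def inncB (x y k : ℕ) : Bool :=
  Nat.ble ((x / 4 + 9 - k) % 6 + (bif Nat.beq (y / 4) (x / 4) then y % 4 + 1 else y % 4)) 3
def stepB (x y : ℕ) : Bool :=
  Nat.beq y x || (Nat.beq (y / 4) ((x / 4 + 5) % 6) && Nat.beq (y % 4) (x % 4 + 1)) ||
    (Nat.beq (y / 4) ((x / 4 + 5) % 6) && Nat.beq (y % 4) (x % 4)) ||
    (Nat.beq (y / 4) (x / 4) && Nat.beq (y % 4 + 1) (x % 4))
def covB (x m : ℕ) : Bool :=
  Nat.ble 1 ((m + 6 - x / 4) % 6) && Nat.ble ((m + 6 - x / 4) % 6) (x % 4)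

/-- the window with the number `x` -/
def wx (x : ℕ) : ZMod 6 × ℕ := (((x / 4 : ℕ) : ZMod 6), x % 4)

instance (w : ZMod 6 × ℕ) (j : ZMod 6) : Decidable (inn w j) := by unfold inn; infer_instance
instance (w : ZMod 6 × ℕ) (j : ZMod 6) : Decidable (out w j) := by unfold out; infer_instance
instance (w w' : ZMod 6 × ℕ) (j : ZMod 6) : Decidable (outc w w' j) := by
  unfold outc; infer_instance
instance (w w' : ZMod 6 × ℕ) (j : ZMod 6) : Decidable (innc w w' j) := by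
  unfold innc; infer_instance
instance (w w' : ZMod 6 × ℕ) : Decidable (WStep w w') := by unfold WStep; infer_instance

theorem innB_iff : ∀ x < 24, ∀ k < 6, inn (wx x) ((k : ℕ) : ZMod 6) → innB x k = true := by
  decide +kernel

theorem outB_iff : ∀ x < 24, ∀ k < 6, out (wx x) ((k : ℕ) : ZMod 6) → outB x k = true := by
  decide +kernel

theorem outcB_iff : ∀ x < 24, ∀ y < 24, ∀ k < 6, outc (wx x) (wx y) ((k : ℕ) : ZMod 6) →
    outcB x y k = true := by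
  decide +kernel

theorem inncB_iff : ∀ x < 24, ∀ y < 24, ∀ k < 6, innc (wx x) (wx y) ((k : ℕ) : ZMod 6) →
    inncB x y k = true := by
  decide +kernel

theorem stepB_iff : ∀ x < 24, ∀ y < 24, WStep (wx x) (wx y) → stepB x y = true := by
  decide +kernel

theorem covB_iff : ∀ x < 24, ∀ m < 6, (∃ d : Fin 3, d.val < (wx x).2 ∧
    (wx x).1 + d.val + 1 = ((m : ℕ) : ZMod 6)) → covB x m = true := by
  decide +kernel

theorem wx_inj : ∀ x < 24, ∀ y < 24, wx x = wx y → x = y := by decide +kernel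

theorem wx_ex (w : ZMod 6 × ℕ) (h : w.2 ≤ 3) : ∃ x, x < 24 ∧ wx x = w := by
  have hv : w.1.val < 6 := ZMod.val_lt _
  refine ⟨4 * w.1.val + w.2, by omega, ?_⟩
  unfold wx
  rw [show (4 * w.1.val + w.2) / 4 = w.1.val by omega, show (4 * w.1.val + w.2) % 4 = w.2 by omega,
    ZMod.natCast_zmod_val]

theorem nuW' {t i x : ℕ} (ht : t < 2) (hi : i < 6) (hx : x < 24) :
    nu A (vW t i x) ↔ A.win (bb t) (f6 i) = wx x := nuW ht hi hx

theorem f6v {k : ℕ} (hk : k < 6) : (((f6 k).val : ℕ) : ZMod 6) = ((k : ℕ) : ZMod 6) := by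
  unfold f6
  simp only [Nat.mod_eq_of_lt hk]

section
variable (h : LOW A) {p k m t s s2 c d e g i x y : ℕ}
include h

theorem wex (t i : ℕ) : ∃ x, x < 24 ∧ A.win (bb t) (f6 i) = wx x := by
  obtain ⟨x, hx, h1⟩ := wx_ex _ (h.wlen (bb t) (f6 i))
  exact ⟨x, hx, h1.symm⟩

theorem f_w1a (ht : t < 2) (hi : i < 6) : CL (nu A) (ws (fun _ => true) fun x => P (vW t i x)) := by
  obtain ⟨x, hx, h1⟩ := wex h t i
  exact CL_ws hx rfl (by rw [lit_P, nuW' ht hi hx]; exact h1)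

omit h in
theorem f_w1b (ht : t < 2) (hi : i < 6) (hx : x < 24) (hy : y < 24) (hxy : x ≠ y) :
    CL (nu A) [N (vW t i x), N (vW t i y)] := by
  rw [CL_cons, CL_cons, lit_N, lit_N, nuW' ht hi hx, nuW' ht hi hy]
  by_cases h1 : A.win (bb t) (f6 i) = wx x
  · exact Or.inr (Or.inl fun h2 => hxy (wx_inj x hx y hy (h1.symm.trans h2)))
  · exact Or.inl h1

theorem f_wstep (hi : i < 6) (hx : x < 24) :
    CL (nu A) (N (vW 0 i x) :: ws (fun y => stepB x y) fun y => P (vW 1 i y)) := by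
  rw [CL_cons, lit_N, nuW' (by omega) hi hx]
  by_cases h1 : A.win (bb 0) (f6 i) = wx x
  · obtain ⟨y, hy, h2⟩ := wex h 1 i
    refine Or.inr (CL_ws hy (stepB_iff x hx y hy ?_) (by rw [lit_P, nuW' (by omega) hi hy]; exact h2))
    rw [← h1, ← h2]; exact h.wstep _
  · exact Or.inl h1

theorem f_winn (hk : k < 6) (ht : t < 2) (hi : i < 6) :
    CL (nu A) (N (vI 0 k t i) :: ws (fun x => innB x k) fun x => P (vW t i x)) := by
  rw [CL_cons, lit_N, nuI (by omega) hk ht hi, px0.1, px0.2]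
  by_cases h1 : A.IN (bb t) 0 0 (f6 k) (f6 i)
  · obtain ⟨x, hx, h2⟩ := wex h t i
    refine Or.inr (CL_ws hx (innB_iff x hx k hk ?_) (by rw [lit_P, nuW' ht hi hx]; exact h2))
    rw [← h2, ← f6v hk]; exact h.winn _ _ _ h1
  · exact Or.inl h1

theorem f_wout (hk : k < 6) (ht : t < 2) (hi : i < 6) :
    CL (nu A) (N (vO 0 k t i) :: ws (fun x => outB x k) fun x => P (vW t i x)) := by
  rw [CL_cons, lit_N, nuO (by omega) hk ht hi, px0.1, px0.2]
  by_cases h1 : A.OUT (bb t) 0 0 (f6 k) (f6 i)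
  · obtain ⟨x, hx, h2⟩ := wex h t i
    refine Or.inr (CL_ws hx (outB_iff x hx k hk ?_) (by rw [lit_P, nuW' ht hi hx]; exact h2))
    rw [← h2, ← f6v hk]; exact h.wout _ _ _ h1
  · exact Or.inl h1

theorem f_cover (ht : t < 2) (hm : m < 6) :
    CL (nu A) (ws (fun x => covB x m) (fun x => P (vW t 0 x)) ++
      (ws (fun x => covB x m) (fun x => P (vW t 1 x)) ++
      (ws (fun x => covB x m) (fun x => P (vW t 2 x)) ++
      (ws (fun x => covB x m) (fun x => P (vW t 3 x)) ++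
      (ws (fun x => covB x m) (fun x => P (vW t 4 x)) ++
      ws (fun x => covB x m) fun x => P (vW t 5 x)))))) := by
  obtain ⟨i, hi, h1⟩ := ex6 (h.cover (bb t) (m : ZMod 6))
  obtain ⟨x, hx, h2⟩ := wex h t i
  rw [h2] at h1
  have h3 : CL (nu A) (ws (fun x => covB x m) (fun x => P (vW t i x))) :=
    CL_ws hx (covB_iff x hx m hm h1) (by rw [lit_P, nuW' ht hi hx]; exact h2)
  simp only [CL_append]
  interval_cases i
  · exact Or.inl h3
  · exact Or.inr (Or.inl h3)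
  · exact Or.inr (Or.inr (Or.inl h3))
  · exact Or.inr (Or.inr (Or.inr (Or.inl h3)))
  · exact Or.inr (Or.inr (Or.inr (Or.inr (Or.inl h3))))
  · exact Or.inr (Or.inr (Or.inr (Or.inr (Or.inr h3))))

omit h in
theorem pnb (hk : k < 6) : nb 0 k < 19 ∧ px (nb 0 k) = dx (f6 k) ∧ py (nb 0 k) = dy (f6 k) := by
  have h1 : nb 0 k < 19 := by interval_cases k <;> decide
  have h2 := nb_spec 0 (by omega) k hk h1
  rw [px0.1, px0.2, zero_add, zero_add] at h2
  exact ⟨h1, h2⟩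

theorem f_side (hk : k < 6) (hc : c < 6) :
    CL (nu A) [N (vT (nb 0 k) c), P (vIC k c), P (vOC k c)] := by
  rw [CL_cons, CL_cons, CL_cons, lit_N, lit_P, lit_P, nuT (pnb hk).1 hc, nuIC hk hc, nuOC hk hc,
    (pnb hk).2.1, (pnb hk).2.2]
  by_cases h1 : A.TT (dx (f6 k)) (dy (f6 k)) (f6 c)
  · rcases h.side _ _ h1 with h2 | h2
    · exact Or.inr (Or.inl h2)
    · exact Or.inr (Or.inr (Or.inl h2))
  · exact Or.inl h1

theorem f_icT (hk : k < 6) (hc : c < 6) : CL (nu A) [N (vIC k c), P (vT (nb 0 k) c)] := by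
  rw [CL_cons, CL_cons, lit_N, lit_P, nuT (pnb hk).1 hc, nuIC hk hc, (pnb hk).2.1, (pnb hk).2.2]
  by_cases h1 : A.IC (f6 k) (f6 c)
  · exact Or.inr (Or.inl (h.icT _ _ h1))
  · exact Or.inl h1

theorem f_ocT (hk : k < 6) (hc : c < 6) : CL (nu A) [N (vOC k c), P (vT (nb 0 k) c)] := by
  rw [CL_cons, CL_cons, lit_N, lit_P, nuT (pnb hk).1 hc, nuOC hk hc, (pnb hk).2.1, (pnb hk).2.2]
  by_cases h1 : A.OC (f6 k) (f6 c)
  · exact Or.inr (Or.inl (h.ocT _ _ h1))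
  · exact Or.inl h1

theorem f_hullO (hk : k < 6) (hc : c < 6) (hx : x < 24) (hy : y < 24) (ho : outcB x y k = false) :
    CL (nu A) [N (vOC k c), N (vW 0 c x), N (vW 1 c y)] := by
  rw [CL_cons, CL_cons, CL_cons, lit_N, lit_N, lit_N, nuOC hk hc, nuW' (by omega) hc hx,
    nuW' (by omega) hc hy]
  by_contra hcon
  push Not at hcon
  obtain ⟨h1, h2, h3, -⟩ := hcon
  have h4 := h.hullO _ _ h1
  rw [f6v hk, show (false : Bool) = bb 0 from rfl, show (true : Bool) = bb 1 from rfl, h2, h3] at h4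
  rw [outcB_iff x hx y hy k hk h4] at ho
  cases ho

theorem f_hullI (hk : k < 6) (hc : c < 6) (hx : x < 24) (hy : y < 24) (ho : inncB x y k = false) :
    CL (nu A) [N (vIC k c), N (vW 0 c x), N (vW 1 c y)] := by
  rw [CL_cons, CL_cons, CL_cons, lit_N, lit_N, lit_N, nuIC hk hc, nuW' (by omega) hc hx,
    nuW' (by omega) hc hy]
  by_contra hcon
  push Not at hcon
  obtain ⟨h1, h2, h3, -⟩ := hcon
  have h4 := h.hullI _ _ h1
  rw [f6v hk, show (false : Bool) = bb 0 from rfl, show (true : Bool) = bb 1 from rfl, h2, h3] at h4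
  rw [inncB_iff x hx y hy k hk h4] at ho
  cases ho

theorem f_sidezI (hk : k < 6) (ht : t < 2) (hc : c < 6) :
    CL (nu A) [N (vI 0 k t c), P (vIC k c)] := by
  rw [CL_cons, CL_cons, lit_N, lit_P, nuI (by omega) hk ht hc, nuIC hk hc, px0.1, px0.2]
  by_cases h1 : A.IN (bb t) 0 0 (f6 k) (f6 c)
  · exact Or.inr (Or.inl (h.sidezI _ _ _ h1))
  · exact Or.inl h1

theorem f_sidezO (hk : k < 6) (ht : t < 2) (hc : c < 6) :
    CL (nu A) [N (vO 0 k t c), P (vOC k c)] := by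
  rw [CL_cons, CL_cons, lit_N, lit_P, nuO (by omega) hk ht hc, nuOC hk hc, px0.1, px0.2]
  by_cases h1 : A.OUT (bb t) 0 0 (f6 k) (f6 c)
  · exact Or.inr (Or.inl (h.sidezO _ _ _ h1))
  · exact Or.inl h1

theorem f_sidelI (hk : k < 6) (hm : m < 6) (ht : t < 2) (hc : c < 6) (hu : nb (nb 0 k) m < 19)
    (hw : swI (bb t) (f6 k) (f6 m) = true) :
    CL (nu A) [N (vL (nb (nb 0 k) m) ((m + 3) % 6) t c), P (vIC k c)] := by
  rw [CL_cons, CL_cons, lit_N, lit_P, nuL hu (Nat.mod_lt _ (by omega)) ht hc, nuIC hk hc,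
    (nb_spec _ (pnb hk).1 m hm hu).1, (nb_spec _ (pnb hk).1 m hm hu).2, (pnb hk).2.1, (pnb hk).2.2,
    f6_add_three hm]
  by_cases h1 : A.LT (bb t) (dx (f6 k) + dx (f6 m)) (dy (f6 k) + dy (f6 m)) (f6 m + 3) (f6 c)
  · exact Or.inr (Or.inl (h.sidelI _ _ _ _ hw h1))
  · exact Or.inl h1

theorem f_sidelO (hk : k < 6) (hm : m < 6) (ht : t < 2) (hc : c < 6) (hu : nb (nb 0 k) m < 19)
    (hw : swO (bb t) (f6 k) (f6 m) = true ∨ m = k) :
    CL (nu A) [N (vL (nb (nb 0 k) m) ((m + 3) % 6) t c), P (vOC k c)] := by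
  rw [CL_cons, CL_cons, lit_N, lit_P, nuL hu (Nat.mod_lt _ (by omega)) ht hc, nuOC hk hc,
    (nb_spec _ (pnb hk).1 m hm hu).1, (nb_spec _ (pnb hk).1 m hm hu).2, (pnb hk).2.1, (pnb hk).2.2,
    f6_add_three hm]
  by_cases h1 : A.LT (bb t) (dx (f6 k) + dx (f6 m)) (dy (f6 k) + dy (f6 m)) (f6 m + 3) (f6 c)
  · refine Or.inr (Or.inl (h.sidelO _ _ _ _ (hw.imp_right fun e => by rw [e]) h1))
  · exact Or.inl h1

omit h in
theorem f6_sub_one (hk : k < 6) : f6 ((k + 5) % 6) = f6 k - 1 := by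
  interval_cases k <;> rfl

end

section
variable {k c y : ℕ}

theorem f_xO1 (hk : k < 6) (hy : y < 3) (hc : c < 6) :
    CL (nu A) [N (vXO k y c), P (vOC k c)] := by
  rw [CL_cons, CL_cons, lit_N, lit_P, nuXO hk hy hc, nuOC hk hc]
  by_cases h1 : A.OC (f6 k) (f6 c)
  · exact Or.inr (Or.inl h1)
  · exact Or.inl fun h2 => h1 h2.1

theorem f_xI1 (hk : k < 6) (hy : y < 3) (hc : c < 6) :
    CL (nu A) [N (vXI k y c), P (vIC k c)] := by
  rw [CL_cons, CL_cons, lit_N, lit_P, nuXI hk hy hc, nuIC hk hc]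
  by_cases h1 : A.IC (f6 k) (f6 c)
  · exact Or.inr (Or.inl h1)
  · exact Or.inl fun h2 => h1 h2.1

/-- the times `ta`, `tb` as numbers -/
def tan (y : ℕ) : ℕ := bif Nat.beq y 2 then 1 else 0
def tbn (y : ℕ) : ℕ := bif Nat.beq y 0 then 0 else 1

theorem tan_spec (hy : y < 3) : tan y < 2 ∧ bb (tan y) = ta y := by
  interval_cases y <;> decide

theorem tbn_spec (hy : y < 3) : tbn y < 2 ∧ bb (tbn y) = tb y := by
  interval_cases y <;> decide

theorem f_xO2 (hk : k < 6) (hy : y < 3) (hc : c < 6) :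
    CL (nu A) [N (vXO k y c), N (vL 0 ((k + 1) % 6) (tan y) c)] := by
  rw [CL_cons, CL_cons, lit_N, lit_N, nuXO hk hy hc,
    nuL (by omega) (Nat.mod_lt _ (by omega)) (tan_spec hy).1 hc, (tan_spec hy).2, f6_add_one hk,
    px0.1, px0.2]
  by_cases h1 : A.LT (ta y) 0 0 (f6 k + 1) (f6 c)
  · exact Or.inl fun h2 => h2.2.1 h1
  · exact Or.inr (Or.inl h1)

theorem f_xO3 (hk : k < 6) (hy : y < 3) (hc : c < 6) :
    CL (nu A) [N (vXO k y c), N (vL 0 ((k + 5) % 6) (tbn y) c)] := by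
  rw [CL_cons, CL_cons, lit_N, lit_N, nuXO hk hy hc,
    nuL (by omega) (Nat.mod_lt _ (by omega)) (tbn_spec hy).1 hc, (tbn_spec hy).2, f6_sub_one hk,
    px0.1, px0.2]
  by_cases h1 : A.LT (tb y) 0 0 (f6 k - 1) (f6 c)
  · exact Or.inl fun h2 => h2.2.2 h1
  · exact Or.inr (Or.inl h1)

theorem f_xI2 (hk : k < 6) (hy : y < 3) (hc : c < 6) :
    CL (nu A) [N (vXI k y c), N (vL 0 ((k + 1) % 6) (tbn y) c)] := by
  rw [CL_cons, CL_cons, lit_N, lit_N, nuXI hk hy hc,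
    nuL (by omega) (Nat.mod_lt _ (by omega)) (tbn_spec hy).1 hc, (tbn_spec hy).2, f6_add_one hk,
    px0.1, px0.2]
  by_cases h1 : A.LT (tb y) 0 0 (f6 k + 1) (f6 c)
  · exact Or.inl fun h2 => h2.2.1 h1
  · exact Or.inr (Or.inl h1)

theorem f_xI3 (hk : k < 6) (hy : y < 3) (hc : c < 6) :
    CL (nu A) [N (vXI k y c), N (vL 0 ((k + 5) % 6) (tan y) c)] := by
  rw [CL_cons, CL_cons, lit_N, lit_N, nuXI hk hy hc,
    nuL (by omega) (Nat.mod_lt _ (by omega)) (tan_spec hy).1 hc, (tan_spec hy).2, f6_sub_one hk,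
    px0.1, px0.2]
  by_cases h1 : A.LT (ta y) 0 0 (f6 k - 1) (f6 c)
  · exact Or.inl fun h2 => h2.2.2 h1
  · exact Or.inr (Or.inl h1)

end

end Vale.Agent.P032.H184
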