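import Vale.Agent.P032.H184.Fam

/-!
# P032: the test of the clauses

`tst c a f` : the mask `c` is the clause of the family `f` with the packed arguments `a`;
`sat_tst` : such a clause is true under `nu A` for every model `A` of the rules;
`learned_LOW` : all learned clauses of a checked data base are true.
-/

namespace Vale.Agent.P032.H184

open Vale.Agent.P032.H859.Rup

def lt (a b : ℕ) : Bool := Nat.ble (Nat.succ a) b

theorem lt_iff {a b : ℕ} : lt a b = true ↔ a < b := by
  unfold lt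
  exact ⟨fun h => Nat.le_of_ble_eq_true h, fun h => Nat.ble_eq_true_of_le h⟩

theorem beq_iff {a b : ℕ} : Nat.beq a b = true ↔ a = b :=
  ⟨fun h => Nat.eq_of_beq_eq_true h, fun h => by rw [h]; exact Nat.beq_refl b⟩

/-- the clause -/
def clsX (f p k m s s2 c d e g i S x y : ℕ) : List ℕ :=
  match f with
  | 0 => [P (vT 0 c)]
  | 1 => [N (vL p k s c), P (vT (nb p k) c)]
  | 2 => cs (fun _ => true) fun c => P (vI p k s c)
  | 3 => cs (fun _ => true) fun c => P (vO p k s c)
  | 4 => [N (vI p k s c), P (vL p k s c)]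
  | 5 => [N (vO p k s c), P (vL p k s c)]
  | 6 => [N (vL p k s c), P (vI p k s c), P (vO p k s c)]
  | 7 => N (vL p k s c) :: N (vT p c) :: cs (ne c) fun d => P (vL p k s d)
  | 8 => P (vG p 4) :: cs (fun _ => true) fun c => P (vX p k s c)
  | 9 => [N (vI p k s c), N (vO p k s c), N (vMs p c d), N (vMs p e g), P (vG p 5)]
  | 11 => [N (vI 0 k s c), N (vO 0 k s c)]
  | 13 => N (vL p k s c) :: N (vL p k s d) :: N (vT p c) :: N (vT p d) :: P (vM p c d) ::
      cs (fun e => ne c e && ne d e) fun e => P (vL p k s e)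
  | 14 => cs (fun c => S.testBit c) (fun c => N (vL p k s c)) ++
      cs (fun c => !S.testBit c) fun c => P (vO (nb p k) m s2 c)
  | 15 => cs (fun c => S.testBit c) (fun c => N (vL p k s c)) ++
      cs (fun c => !S.testBit c) fun c => P (vI (nb p k) m s2 c)
  | 16 => cs (fun c => S.testBit c) (fun c => N (vL p k s c)) ++
      cs (fun c => !S.testBit c) fun c => P (vO (nb p k) m s2 c)
  | 17 => cs (fun c => S.testBit c) (fun c => N (vL p k s c)) ++
      cs (fun c => !S.testBit c) fun c => P (vI (nb p k) m s2 c)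
  | 18 => [N (vL p k s c), N (vL p ((k + 1) % 6) s c)]
  | 19 => [N (vL p k s c), N (vL (nb p m) k s c)]
  | 20 => N (vG p c) :: cs (fun c => S.testBit c) fun c => P (vT p c)
  | 21 => P (vG p c) :: cs (fun c => S.testBit c) fun c => N (vT p c)
  | 22 => [P (vG p 5), N (vMs p i c), N (vMs p i d)]
  | 23 => [P (vG p 6), N (vMs p i c), N (vMs p i d), N (vMs p i e)]
  | 24 => [N (vMs p i c), N (vMs p i d), N (vMs p i e), N (vMs p i g)]
  | 25 => [N (vMs p i c), N (vMs p i d), N (vMs p i e), N (vMs p g c), N (vMs p g d),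
      N (vMs p g e)]
  | 26 => [P (vG p 6), N (vMs p i c), N (vMs p i d), N (vMs p g c), N (vMs p g d)]
  | 27 => P (vG p 4) :: cs (fun _ => true) fun c => P (vD p k c)
  | 28 => P (vG p 4) :: N (vT (nb (nb p k) m) c) :: cs (ne c) fun d => P (vD p k d)
  | 29 => N (vT (nb p k) c) :: N (vT (nb p m) d) ::
      cs (fun e => ne c e && ne d e) fun e => P (vT p e)
  | 30 => [N (vD p k c), P (vT (nb p k) c)]
  | 31 => [N (vD p k c), N (vT p c)]
  | 32 => [N (vX p k s c), P (vL p k s c)]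
  | 33 => [N (vX p k s c), N (vT p c)]
  | 34 => ws (fun _ => true) fun x => P (vW s i x)
  | 35 => [N (vW s i x), N (vW s i y)]
  | 36 => N (vW 0 i x) :: ws (fun y => stepB x y) fun y => P (vW 1 i y)
  | 37 => N (vI 0 k s i) :: ws (fun x => innB x k) fun x => P (vW s i x)
  | 38 => N (vO 0 k s i) :: ws (fun x => outB x k) fun x => P (vW s i x)
  | 39 => ws (fun x => covB x m) (fun x => P (vW s 0 x)) ++
      (ws (fun x => covB x m) (fun x => P (vW s 1 x)) ++
      (ws (fun x => covB x m) (fun x => P (vW s 2 x)) ++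
      (ws (fun x => covB x m) (fun x => P (vW s 3 x)) ++
      (ws (fun x => covB x m) (fun x => P (vW s 4 x)) ++
      ws (fun x => covB x m) fun x => P (vW s 5 x)))))
  | 40 => [N (vT (nb 0 k) c), P (vIC k c), P (vOC k c)]
  | 41 => [N (vIC k c), P (vT (nb 0 k) c)]
  | 42 => [N (vOC k c), P (vT (nb 0 k) c)]
  | 43 => [N (vOC k c), N (vW 0 c x), N (vW 1 c y)]
  | 44 => [N (vIC k c), N (vW 0 c x), N (vW 1 c y)]
  | 45 => [N (vI 0 k s c), P (vIC k c)]
  | 46 => [N (vO 0 k s c), P (vOC k c)]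
  | 47 => [N (vL (nb (nb 0 k) m) ((m + 3) % 6) s c), P (vIC k c)]
  | 48 => [N (vL (nb (nb 0 k) m) ((m + 3) % 6) s c), P (vOC k c)]
  | 49 => cs (fun _ => true) fun c => P (vXO k y c)
  | 50 => cs (fun _ => true) fun c => P (vXI k y c)
  | 51 => [N (vXO k y c), P (vOC k c)]
  | 52 => [N (vXI k y c), P (vIC k c)]
  | 53 => [N (vXO k y c), N (vL 0 ((k + 1) % 6) (tan y) c)]
  | 54 => [N (vXO k y c), N (vL 0 ((k + 5) % 6) (tbn y) c)]
  | 55 => [N (vXI k y c), N (vL 0 ((k + 1) % 6) (tbn y) c)]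
  | 56 => [N (vXI k y c), N (vL 0 ((k + 5) % 6) (tan y) c)]
  | _ => []

/-- the test of the arguments which are used by one family only -/
def okX (f p k m s s2 c d e g i S x y : ℕ) : Bool :=
  match f with
  | 1 => lt (nb p k) 19
  | 9 => ne d c && (ne e c && (ne g c && (ne e d && (ne g d && ne g e))))
  | 10 => false
  | 12 => false
  | 13 => ne d c
  | 14 => lt (nb p k) 19 && swO (bb s) (f6 k) (f6 m)
  | 15 => lt (nb p k) 19 && swI (bb s) (f6 k) (f6 m)
  | 16 => lt (nb p k) 19 && ((Nat.beq m k && Nat.beq s2 s) ||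
      (Nat.beq m ((k + 3) % 6) && Nat.beq s2 (1 - s)))
  | 17 => lt (nb p k) 19 && ((Nat.beq m k && Nat.beq s2 (1 - s)) ||
      (Nat.beq m ((k + 3) % 6) && Nat.beq s2 s))
  | 19 => lt (nb p m) 19
  | 20 => Nat.beq (pc S + c) 7
  | 21 => Nat.beq (pc S) c
  | 22 => ne c i && (ne d i && ne d c)
  | 23 => ne c i && (ne d i && (ne e i && (ne d c && (ne e c && ne e d))))
  | 24 => ne c i && (ne d i && (ne e i && (ne g i && (ne d c && (ne e c && (ne g c &&
      (ne e d && (ne g d && ne g e))))))))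
  | 25 => ne g i && (ne d c && (ne e c && (ne e d && (ne c i && (ne d i && (ne e i &&
      (ne c g && (ne d g && ne e g))))))))
  | 26 => ne g i && (ne d c && (ne c i && (ne d i && (ne c g && ne d g))))
  | 28 => lt (nb p k) 19 && (lt (nb (nb p k) m) 19 && (ne k m && ne ((k + 3) % 6) m))
  | 29 => lt (nb p k) 19 && (lt (nb p m) 19 && (ne k m && (ne ((k + 3) % 6) m && ne d c)))
  | 30 => lt (nb p k) 19
  | 35 => ne y x
  | 43 => !outcB x y k
  | 44 => !inncB x y k
  | 47 => lt (nb (nb 0 k) m) 19 && swI (bb s) (f6 k) (f6 m)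
  | 48 => lt (nb (nb 0 k) m) 19 && (swO (bb s) (f6 k) (f6 m) || Nat.beq m k)
  | 49 => false
  | 50 => false
  | 51 => lt y 3
  | 52 => lt y 3
  | 53 => lt y 3
  | 54 => lt y 3
  | 55 => lt y 3
  | 56 => lt y 3
  | _ => true

/-- the bounds of the arguments (`c ≤ 7` in the families 20, 21 only) -/
def bdX (f p k m s s2 c d e g i S x y : ℕ) : Bool :=
  lt f 57 && (lt p 19 && (lt k 6 && (lt m 6 && (lt s 2 && (lt s2 2 && (lt d 6 && (lt e 6 &&
    (lt g 6 && (lt i 6 && (lt S 64 && (lt x 24 && (lt y 24 && (lt c 6 || (lt c 8 &&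
      (Nat.beq f 20 || Nat.beq f 21)))))))))))))))

theorem clsX_true {A : At} (h : LOW A) {f p k m s s2 c d e g i S x y : ℕ}
    (hb : bdX f p k m s s2 c d e g i S x y = true)
    (ho : okX f p k m s s2 c d e g i S x y = true) :
    CL (nu A) (clsX f p k m s s2 c d e g i S x y) := by
  unfold bdX at hb
  simp only [Bool.and_eq_true, Bool.or_eq_true, lt_iff, beq_iff] at hb
  obtain ⟨h57, hp, hk, hm, hs, hs2, hd, he, hg, hi, hS, hx, hy, hc'⟩ := hb
  have h8 : c < 8 := by omega
  by_cases hf : f = 20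
  · subst hf
    simp only [okX, beq_iff] at ho
    exact f_GEa hp h8 hS ho
  by_cases hf' : f = 21
  · subst hf'
    simp only [okX, beq_iff] at ho
    exact f_GEb hp h8 hS ho
  have hc : c < 6 := by omega
  match f, ho with
  | 0, _ => exact f_six h hc
  | 1, ho => exact f_memb h hp hk hs hc (lt_iff.1 ho)
  | 2, _ => exact f_neI h hp hk hs
  | 3, _ => exact f_neO h hp hk hs
  | 4, _ => exact f_IL h hp hk hs hc
  | 5, _ => exact f_OL h hp hk hs hc
  | 6, _ => exact f_LIO h hp hk hs hc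
  | 7, _ => exact f_pair h hp hk hs hc
  | 8, _ => exact f_sub4 h hp hk hs
  | 9, ho =>
    simp only [okX, Bool.and_eq_true, ne_iff] at ho
    obtain ⟨h1, h2, h3, h4, h5, h6⟩ := ho
    exact f_side4 h hp hk hs hc hd he hg h1 h2 h3 h4 h5 h6
  | 10, ho => exact absurd ho Bool.false_ne_true
  | 11, _ => exact f_sideIO h hk hs hc
  | 12, ho => exact absurd ho Bool.false_ne_true
  | 13, ho => exact f_defM h hp hk hs hc hd (ne_iff.1 ho)
  | 14, ho =>
    simp only [okX, Bool.and_eq_true, lt_iff] at ho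
    exact f_sweepO h hp hk hm hs hs2 ho.1 ho.2
  | 15, ho =>
    simp only [okX, Bool.and_eq_true, lt_iff] at ho
    exact f_sweepI h hp hk hm hs hs2 ho.1 ho.2
  | 16, ho =>
    simp only [okX, Bool.and_eq_true, Bool.or_eq_true, lt_iff, beq_iff] at ho
    exact f_wedgeO h hp hk hm hs hs2 ho.1 ho.2
  | 17, ho =>
    simp only [okX, Bool.and_eq_true, Bool.or_eq_true, lt_iff, beq_iff] at ho
    exact f_wedgeI h hp hk hm hs hs2 ho.1 ho.2
  | 18, _ => exact f_sixty h hp hk hs hc
  | 19, ho => exact f_product h hp hk hm hs hc (lt_iff.1 ho)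
  | 20, _ => exact absurd rfl hf
  | 21, _ => exact absurd rfl hf'
  | 22, ho =>
    simp only [okX, Bool.and_eq_true, ne_iff] at ho
    obtain ⟨h1, h2, h3⟩ := ho
    exact f_M4 h hp hi hc hd h1 h2 h3
  | 23, ho =>
    simp only [okX, Bool.and_eq_true, ne_iff] at ho
    obtain ⟨h1, h2, h3, h4, h5, h6⟩ := ho
    exact f_M5 h hp hi hc hd he h1 h2 h3 h4 h5 h6
  | 24, ho =>
    simp only [okX, Bool.and_eq_true, ne_iff] at ho
    obtain ⟨h1, h2, h3, h4, h5, h6, h7, h8, h9, h10⟩ := ho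
    exact f_M6 h hp hi hc hd he hg h1 h2 h3 h4 h5 h6 h7 h8 h9 h10
  | 25, ho =>
    simp only [okX, Bool.and_eq_true, ne_iff] at ho
    obtain ⟨h1, h2, h3, h4, h5, h6, h7, h8, h9, h10⟩ := ho
    exact f_K23 h hp hi hg hc hd he h1 h2 h3 h4 h5 h6 h7 h8 h9 h10
  | 26, ho =>
    simp only [okX, Bool.and_eq_true, ne_iff] at ho
    obtain ⟨h1, h2, h3, h4, h5, h6⟩ := ho
    exact f_C5 h hp hi hg hc hd h1 h2 h3 h4 h5 h6
  | 27, _ => exact f_notsub h hp hk
  | 28, ho =>
    simp only [okX, Bool.and_eq_true, lt_iff, ne_iff] at ho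
    obtain ⟨h1, h2, h3, h4⟩ := ho
    exact f_third h hp hk hm hc h1 h2 h3 h4
  | 29, ho =>
    simp only [okX, Bool.and_eq_true, lt_iff, ne_iff] at ho
    obtain ⟨h1, h2, h3, h4, h5⟩ := ho
    exact f_lemB h hp hk hm hc hd h1 h2 h3 h4 h5
  | 30, ho => exact f_DT hp hk hc (lt_iff.1 ho)
  | 31, _ => exact f_DX hp hk hc
  | 32, _ => exact f_XL hp hk hs hc
  | 33, _ => exact f_XT hp hk hs hc
  | 34, _ => exact f_w1a h hs hi
  | 35, ho => exact f_w1b hs hi hx hy (ne_iff.1 ho)
  | 36, _ => exact f_wstep h hi hx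
  | 37, _ => exact f_winn h hk hs hi
  | 38, _ => exact f_wout h hk hs hi
  | 39, _ => exact f_cover h hs hm
  | 40, _ => exact f_side h hk hc
  | 41, _ => exact f_icT h hk hc
  | 42, _ => exact f_ocT h hk hc
  | 43, ho =>
    simp only [okX, Bool.not_eq_true'] at ho
    exact f_hullO h hk hc hx hy ho
  | 44, ho =>
    simp only [okX, Bool.not_eq_true'] at ho
    exact f_hullI h hk hc hx hy ho
  | 45, _ => exact f_sidezI h hk hs hc
  | 46, _ => exact f_sidezO h hk hs hc
  | 47, ho =>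
    simp only [okX, Bool.and_eq_true, lt_iff] at ho
    exact f_sidelI h hk hm hs hc ho.1 ho.2
  | 48, ho =>
    simp only [okX, Bool.and_eq_true, Bool.or_eq_true, lt_iff, beq_iff] at ho
    exact f_sidelO h hk hm hs hc ho.1 ho.2
  | 49, ho => exact absurd ho Bool.false_ne_true
  | 50, ho => exact absurd ho Bool.false_ne_true
  | 51, ho => exact f_xO1 hk (lt_iff.1 ho) hc
  | 52, ho => exact f_xI1 hk (lt_iff.1 ho) hc
  | 53, ho => exact f_xO2 hk (lt_iff.1 ho) hc
  | 54, ho => exact f_xO3 hk (lt_iff.1 ho) hc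
  | 55, ho => exact f_xI2 hk (lt_iff.1 ho) hc
  | 56, ho => exact f_xI3 hk (lt_iff.1 ho) hc
  | n + 57, _ => exact absurd h57 (by omega)

/-- a field of the packed arguments -/
def fld (a n w : ℕ) : ℕ := Nat.land (Nat.shiftRight a n) w

/-- the clause of the family `f` with the packed arguments `a` -/
def cls (f a : ℕ) : List ℕ :=
  clsX f (fld a 0 31) (fld a 5 7) (fld a 8 7) (fld a 11 1) (fld a 12 1) (fld a 13 7) (fld a 16 7)
    (fld a 19 7) (fld a 22 7) (fld a 25 7) (fld a 28 63) (fld a 34 31) (fld a 39 31)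

def ok (f a : ℕ) : Bool :=
  bdX f (fld a 0 31) (fld a 5 7) (fld a 8 7) (fld a 11 1) (fld a 12 1) (fld a 13 7) (fld a 16 7)
    (fld a 19 7) (fld a 22 7) (fld a 25 7) (fld a 28 63) (fld a 34 31) (fld a 39 31) &&
  okX f (fld a 0 31) (fld a 5 7) (fld a 8 7) (fld a 11 1) (fld a 12 1) (fld a 13 7) (fld a 16 7)
    (fld a 19 7) (fld a 22 7) (fld a 25 7) (fld a 28 63) (fld a 34 31) (fld a 39 31)

/-- the test of a leaf -/
def tst (c a f : ℕ) : Bool := bif ok f a then Nat.beq c (mk (cls f a)) else false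

theorem sat_tst {A : At} (h : LOW A) (c a f : ℕ) (ht : tst c a f = true) : Sat (nu A) c := by
  unfold tst at ht
  cases ho : ok f a with
  | false => rw [ho, cond_false] at ht; cases ht
  | true =>
    rw [ho, cond_true] at ht
    rw [Nat.eq_of_beq_eq_true ht]
    unfold ok at ho
    rw [Bool.and_eq_true] at ho
    exact sat_mk (clsX_true h ho.1 ho.2)

/-- **all learned clauses are true** -/
theorem learned_LOW {A : At} (h : LOW A) {E n : ℕ} (hE : Even' E) {B D : Tr}
    (hB : allb tst B = true) (hD : run E (look (getC B) n D) n D 0 1 = true) (j : ℕ) :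
    Sat (nu A) (getC D j) :=
  learned hE hD (fun i _ => sat_of_allb (fun c H k => sat_tst h c H k) B hB i) j

end Vale.Agent.P032.H184
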