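import Vale.Agent.P032.H184.Glue

/-!
# P032: forbidden pairs of columns from learned clauses

A column is coded by 12 octal digits (in, out of the slots `0, ..., 5`).  `chk D tab = true` : every
learned clause in the table is part of `not (p before and q after)`.
-/

namespace Vale.Agent.P032.H184

open Vale.Agent.P032.H859.Rup

theorem allb_n {g : ℕ → ℕ → ℕ → Bool} {a b : Tr} (ha : allb g a = true) (hb : allb g b = true) :
    allb g (.n a b) = true := by
  show (Bool.rec (motive := fun _ => Bool) false (allb g b) (allb g a)) = true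
  rw [ha]; exact hb

/-- the inner and the outer letter of the slot `j` -/
def ci (p j : ℕ) : ℕ := Nat.land (Nat.shiftRight p (6 * j)) 7
def co (p j : ℕ) : ℕ := Nat.land (Nat.shiftRight p (6 * j + 3)) 7

/-- the column with the code `p` -/
def dcol (p : ℕ) (j : Fin 6) : Fin 6 × Fin 6 := (f6 (ci p j.val), f6 (co p j.val))

/-- the letters are smaller than 6 -/
def okc (p : ℕ) : Bool :=
  [0, 1, 2, 3, 4, 5].all fun j => lt (ci p j) 6 && lt (co p j) 6

/-- `not (p before and q after)` -/
def nlits (p q : ℕ) : List ℕ :=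
  cs (fun _ => true) (fun j => N (vI 0 j 0 (ci p j))) ++
    (cs (fun _ => true) (fun j => N (vO 0 j 0 (co p j))) ++
    (cs (fun _ => true) (fun j => N (vI 0 j 1 (ci q j))) ++
    cs (fun _ => true) (fun j => N (vO 0 j 1 (co q j)))))

noncomputable def chk1 (D : Tr) (p q g : ℕ) : Bool :=
  Bool.rec false (Bool.rec false (Nat.beq (Nat.land (getC D g) (mk (nlits p q))) (getC D g))
    (okc q)) (okc p)

/-- the check of the table -/
noncomputable def chk (D : Tr) (t : List (ℕ × ℕ × ℕ)) : Bool :=
  List.rec true (fun x _ ih => Bool.rec false ih (chk1 D x.1 x.2.1 x.2.2)) t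

theorem rec_and {a b : Bool} : (Bool.rec (motive := fun _ => Bool) false b a) = true ↔
    a = true ∧ b = true := by
  cases a <;> cases b <;> simp

theorem chk_mem {D : Tr} {t : List (ℕ × ℕ × ℕ)} (h : chk D t = true) {x : ℕ × ℕ × ℕ}
    (hx : x ∈ t) : chk1 D x.1 x.2.1 x.2.2 = true := by
  induction t with
  | nil => cases hx
  | cons y t ih =>
    have h' : (Bool.rec (motive := fun _ => Bool) false (chk D t) (chk1 D y.1 y.2.1 y.2.2)) =
      true := h
    obtain ⟨h1, h2⟩ := rec_and.1 h'
    rcases List.mem_cons.1 hx with rfl | hx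
    · exact h1
    · exact ih h2 hx

/-- the check of a list of tables -/
noncomputable def chkk (D : Tr) (t : List (List (ℕ × ℕ × ℕ))) : Bool :=
  List.rec true (fun x _ ih => Bool.rec false ih (chk D x)) t

theorem chkk_mem {D : Tr} {t : List (List (ℕ × ℕ × ℕ))} (h : chkk D t = true)
    {x : List (ℕ × ℕ × ℕ)} (hx : x ∈ t) : chk D x = true := by
  induction t with
  | nil => cases hx
  | cons y t ih =>
    have h' : (Bool.rec (motive := fun _ => Bool) false (chkk D t) (chk D y)) = true := h
    obtain ⟨h1, h2⟩ := rec_and.1 h'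
    rcases List.mem_cons.1 hx with rfl | hx
    · exact h1
    · exact ih h2 hx

theorem mem_of_mk {c : List ℕ} {l : ℕ} (h : (mk c).testBit l = true) : l ∈ c := by
  induction c with
  | nil =>
    have h' : (0 : ℕ).testBit l = true := h
    rw [Nat.zero_testBit] at h'
    cases h'
  | cons a c ih =>
    have h' : ((1 <<< a) ||| mk c).testBit l = true := h
    rw [Nat.testBit_or, Nat.one_shiftLeft, Nat.testBit_two_pow] at h'
    rcases Bool.or_eq_true_iff.1 h' with h1 | h1
    · rw [of_decide_eq_true h1]; exact List.mem_cons_self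
    · exact List.mem_cons_of_mem _ (ih h1)

theorem okc_spec {p : ℕ} (h : okc p = true) {j : ℕ} (hj : j < 6) : ci p j < 6 ∧ co p j < 6 := by
  unfold okc at h
  rw [List.all_eq_true] at h
  have h1 := h j (by
    simp only [List.mem_cons, List.not_mem_nil, or_false]
    omega)
  rw [Bool.and_eq_true, lt_iff, lt_iff] at h1
  exact h1

theorem f6_of {j : ℕ} (hj : j < 6) : (f6 j).val = j := Nat.mod_eq_of_lt hj

variable {A : At}

/-- **a pair in the table is impossible** -/
theorem not_pair {D : Tr} (hD : ∀ j, Sat (nu A) (getC D j)) {t : List (ℕ × ℕ × ℕ)}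
    (ht : chk D t = true) {p q g : ℕ} (hx : (p, q, g) ∈ t)
    (hp : ∀ j, A.IN false 0 0 j (dcol p j).1 ∧ A.OUT false 0 0 j (dcol p j).2)
    (hq : ∀ j, A.IN true 0 0 j (dcol q j).1 ∧ A.OUT true 0 0 j (dcol q j).2) : False := by
  have h1 := chk_mem ht hx
  obtain ⟨h2, h3⟩ := rec_and.1 h1
  obtain ⟨h4, h5⟩ := rec_and.1 h3
  have h6 : getC D g &&& mk (nlits p q) = getC D g := Nat.eq_of_beq_eq_true h5
  obtain ⟨l, hl, hL⟩ := hD g
  have h7 : (mk (nlits p q)).testBit l = true := by
    rw [← h6, Nat.testBit_and] at hl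
    exact (Bool.and_eq_true_iff.1 hl).2
  have h8 : CL (nu A) (nlits p q) := ⟨l, mem_of_mk h7, hL⟩
  unfold nlits at h8
  rw [CL_append, CL_append, CL_append, CL_cs, CL_cs, CL_cs, CL_cs] at h8
  have b0 : bb 0 = false := rfl
  have b1 : bb 1 = true := rfl
  rcases h8 with ⟨j, hj, -, h9⟩ | ⟨j, hj, -, h9⟩ | ⟨j, hj, -, h9⟩ | ⟨j, hj, -, h9⟩
  · rw [lit_N, nuI (by omega) hj (by omega) (okc_spec h2 hj).1, b0] at h9
    have := (hp (f6 j)).1
    unfold dcol at this
    rw [f6_of hj] at this
    exact h9 this
  · rw [lit_N, nuO (by omega) hj (by omega) (okc_spec h2 hj).2, b0] at h9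
    have := (hp (f6 j)).2
    unfold dcol at this
    rw [f6_of hj] at this
    exact h9 this
  · rw [lit_N, nuI (by omega) hj (by omega) (okc_spec h4 hj).1, b1] at h9
    have := (hq (f6 j)).1
    unfold dcol at this
    rw [f6_of hj] at this
    exact h9 this
  · rw [lit_N, nuO (by omega) hj (by omega) (okc_spec h4 hj).2, b1] at h9
    have := (hq (f6 j)).2
    unfold dcol at this
    rw [f6_of hj] at this
    exact h9 this

end Vale.Agent.P032.H184
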