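import Vale.Agent.P032.H184.Kill
import Vale.Agent.P032.H437.LOK
import Vale.Agent.P032.H894.Side4
import Vale.Agent.P032.H485.WFam
import Vale.Agent.P032.H158.Cov
import Vale.Agent.P032.H266.FamZ

/-!
# P032: the rules at a centre with windows

`atm` : the atoms of a centre `z` with windows `L R` and a frame `F` at the time `u`.
`low_of` : the rules `LOW`.
-/

open Set Filter Topology Metric

noncomputable section

namespace Vale.Agent.P032.H184

open Vale.Agent.P032.Six Vale.Agent.P032.Sweep Vale.Agent.P032.S5.H767 Vale.Agent.P032.S5.H122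
  Vale.Agent.P032.H158 Vale.Agent.P032.H437 Vale.Agent.P032.H485
open Vale.Agent.P032.H429 (wn wr WinData)

variable {U : Fin 6 → Set ℂ} {T : ℂ → Set (Fin 6)} {z : ℂ} {L R : Fin 6 → ℝ} {u : ℝ}
  {F : Bool → Ultrafilter ℝ}

/-- the point with one pair of coordinates -/
def q1 (m n : ℤ) : QK 1 := fun _ => (m, n)

theorem st_q1 (m n : ℤ) (j : Fin 6) : stK (0 : Fin 1) (q1 m n) j = q1 (m + dx j) (n + dy j) := by
  funext c
  have hc : c = 0 := Subsingleton.elim _ _
  subst hc
  unfold stK q1
  rw [Function.update_self]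
  revert j
  have e : ∀ j : Fin 6, (m + H437.dx j, n + H437.dy j) = ((m + dx j, n + dy j) : ℤ × ℤ) := by
    intro j
    fin_cases j <;> rfl
  exact e

/-- the atoms -/
def atm (U : Fin 6 → Set ℂ) (T : ℂ → Set (Fin 6)) (z : ℂ) (L R : Fin 6 → ℝ) (u : ℝ)
    (F : Bool → Ultrafilter ℝ) : At where
  TT m n i := TK T z (fun _ : Fin 1 => u) (q1 m n) i
  LT s m n j i := LK T z (fun _ : Fin 1 => u) (fun _ => F) 0 s (q1 m n) j i
  IN s m n j i := IK T z (fun _ : Fin 1 => u) (fun _ => F) 0 s (q1 m n) j i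
  OUT s m n j i := OK T z (fun _ : Fin 1 => u) (fun _ => F) 0 s (q1 m n) j i
  MM m n a b := MK T z (fun _ : Fin 1 => u) (q1 m n) a b
  win s i := bif s then wr L R u i else wn L R u i
  IC k i := H485.IC U T z (u + (k.val : ℝ)) i
  OC k i := H485.OC U T z (u + (k.val : ℝ)) i

theorem ge_iff {A : At} {m n : ℤ} {k : ℕ} : A.GE m n k ↔ k ≤ {i | A.TT m n i}.ncard := by
  classical
  constructor
  · rintro ⟨S, h1, h2⟩
    have h3 : (S : Set (Fin 6)) ⊆ {i | A.TT m n i} := fun i hi => h2 i hi
    have h4 := Set.ncard_le_ncard h3 (Set.toFinite _)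
    rwa [Set.ncard_coe_finset, h1] at h4
  · intro h
    have hf : ({i | A.TT m n i} : Set (Fin 6)).Finite := Set.toFinite _
    obtain ⟨S, h1, h2⟩ := Finset.exists_subset_card_eq
      (s := hf.toFinset) (n := k) (by rwa [← Set.ncard_eq_toFinset_card _ hf])
    exact ⟨S, h2, fun i hi => by simpa using h1 hi⟩

theorem mod_d : ∀ (s s' : Bool) (j j' : Fin 6), swO s j j' = true → sgn (j' - j) s' = s := by
  decide

theorem mod_i : ∀ (s s' : Bool) (j j' : Fin 6), swI s j j' = true → sgn (j' - j) s' ≠ s := by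
  decide

theorem mod_3 : ∀ (s' : Bool) (j : Fin 6), sgn (j + 3 - j) s' = !s' := by decide

theorem mod_0 : ∀ (s' : Bool) (j : Fin 6), sgn (j - j) s' = s' := by decide

theorem sk_eq (d : Fin 6) (σ : Bool) : sgK (0 : Fin 1) 0 d σ = sgn d σ := if_pos rfl

theorem frK_of (hf : Fr U T u F) : FrK U T (fun _ : Fin 1 => u) (fun _ => F) where
  irr := hf.irr
  fr := fun _ => hf
  mono := by
    intro a b hab
    exact absurd hab (by rw [Subsingleton.elim a b]; exact lt_irrefl b)
  lt1 := fun _ _ => by linarith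

theorem npk {j k : Fin 6} (h1 : k ≠ j) (h2 : k ≠ j + 3) : NpK (0 : Fin 1) 0 j k = true := by
  unfold NpK
  simp [h1, h2]

theorem lK_q1 (m n : ℤ) : lK z (fun _ : Fin 1 => u) (q1 m n) = H437.lp z u m n := by
  unfold lK q1 H437.lp
  simp
  ring

theorem lp_nb (k : Fin 6) : H437.lp z u (dx k) (dy k) = pt z (u + (k.val : ℝ)) := by
  have h1 := lp_step z u 0 0 k
  rw [lp_zero, zero_add, zero_add] at h1
  have e : ∀ k : Fin 6, H437.dx k = dx k ∧ H437.dy k = dy k := by
    intro k; fin_cases k <;> exact ⟨rfl, rfl⟩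
  rw [h1, (e k).1, (e k).2]

/-- a colour outside near the neighbour has its closed window behind (honest ends) -/
theorem outc_hd {j i : Fin 6} (hle : L i ≤ R i) (hlt : R i < L i + 3)
    (hL : L i ∈ H266.HD U z i) (hR : R i ∈ H266.HD U z i)
    (ho : H485.OC U T z (u + (j.val : ℝ)) i) :
    H158.outc (wn L R u i) (wr L R u i) (j.val : ZMod 6) := by
  obtain ⟨n, h1, h2⟩ := H158.behind hlt ((hL _).1 ho.2) ((hR _).1 ho.2)
  have h3 := (H158.outc_iff (i := i) hle u (j.val : ℤ)).2 ⟨n, by push_cast; linarith,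
    by push_cast; linarith⟩
  simpa using h3

/-- a colour inside near the neighbour has its closed window in front (honest ends) -/
theorem innc_hd {j i : Fin 6} (hle : L i ≤ R i) (hlt : R i < L i + 3)
    (hL : L i ∈ H266.HD U z i) (hR : R i ∈ H266.HD U z i)
    (ho : H485.IC U T z (u + (j.val : ℝ)) i) :
    H158.innc (wn L R u i) (wr L R u i) (j.val : ZMod 6) := by
  have e : ∀ x t : ℝ, 0 ≤ Real.cos ((x - t) * (Real.pi / 3)) →
      Real.cos ((x - (t + 3)) * (Real.pi / 3)) ≤ 0 := by
    intro x t hx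
    have e1 : (x - (t + 3)) * (Real.pi / 3) = (x - t) * (Real.pi / 3) - Real.pi := by ring
    rw [e1, Real.cos_sub_pi]
    linarith
  obtain ⟨n, h1, h2⟩ := H158.behind hlt (e _ _ ((hL _).2 ho.2)) (e _ _ ((hR _).2 ho.2))
  have h3 := (H158.innc_iff (i := i) hle u (j.val : ℤ)).2 ⟨n - 1, by push_cast; linarith,
    by push_cast; linarith⟩
  simpa using h3

/-- **the rules** -/
theorem low_of (hf : Fr U T u F)
    (hmin : ∀ z, 4 ≤ (T z).ncard → ∀ s, s ⊆ T z → s ≠ T z →
      ¬ ∀ᶠ w in 𝓝 z, ∃ i ∈ s, w ∈ U i ∨ (w ∈ XX U ∧ i ∈ Pal U w))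
    (hz : ∀ i, i ∈ T z) (hle : ∀ i, L i ≤ R i) (hlt : ∀ i, R i < L i + 3)
    (hD : ∀ i, L i ∈ H266.HD U z i ∧ R i ∈ H266.HD U z i)
    (hlen : ∀ (s : Bool) (i : Fin 6), (bif s then wr L R u i else wn L R u i).2 ≤ 3)
    (hcov : ∀ (s : Bool) (m : ZMod 6), ∃ i : Fin 6, ∃ d : Fin 3,
      d.val < (bif s then wr L R u i else wn L R u i).2 ∧
        (bif s then wr L R u i else wn L R u i).1 + d.val + 1 = m)
    (hin : ∀ (s : Bool) (j i : Fin 6), Inn (F s) T z (j.val : ℝ) i →
      H429.inn (bif s then wr L R u i else wn L R u i) (j.val : ZMod 6))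
    (hout : ∀ (s : Bool) (j i : Fin 6), Out (F s) T z (j.val : ℝ) i →
      H429.out (bif s then wr L R u i else wn L R u i) (j.val : ZMod 6))
    (hio : ∀ (s : Bool) (j i : Fin 6), Inn (F s) T z (j.val : ℝ) i → ¬ Out (F s) T z (j.val : ℝ) i) :
    LOW (atm U T z L R u F) := by
  have hK := frK_of hf
  have lo := lok_of_frK hK hmin z
  have e0 : lK z (fun _ : Fin 1 => u) (q1 0 0) = z := by rw [lK_q1, lp_zero]
  have eb : ∀ k : Fin 6, lK z (fun _ : Fin 1 => u) (q1 (dx k) (dy k)) = pt z (u + (k.val : ℝ)) :=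
    fun k => by rw [lK_q1, lp_nb]
  have tb : ∀ k c, (atm U T z L R u F).TT (dx k) (dy k) c ↔ c ∈ T (pt z (u + (k.val : ℝ))) := by
    intro k c
    show c ∈ T (lK z (fun _ : Fin 1 => u) (q1 (dx k) (dy k))) ↔ _
    rw [eb]
  have g4 : ∀ {m n : ℤ} {k : ℕ}, GEK (TK T z (fun _ : Fin 1 => u)) (q1 m n) k →
      (atm U T z L R u F).GE m n k := fun h => ge_iff.2 h
  have g4' : ∀ {m n : ℤ} {k : ℕ}, ¬ (atm U T z L R u F).GE m n k →
      ¬ GEK (TK T z (fun _ : Fin 1 => u)) (q1 m n) k := fun h h' => h (ge_iff.2 h')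
  exact {
    six := by
      intro i
      show i ∈ T (lK z (fun _ : Fin 1 => u) (q1 0 0))
      rw [e0]; exact hz i
    memb := by
      intro s m n j i hi
      have h1 := lo.memb (c := 0) hi
      rw [st_q1] at h1
      exact h1
    neI := fun s m n j => lo.neI 0 s (q1 m n) j
    neO := fun s m n j => lo.neO 0 s (q1 m n) j
    inL := fun s m n j i hi => lo.IL (c := 0) hi
    outL := fun s m n j i hi => lo.OL (c := 0) hi
    lio := fun s m n j i hi => lo.LIO (c := 0) hi
    pair2 := fun s m n j i hi ht => lo.pair (c := 0) hi ht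
    sub4 := by
      intro s m n j
      rcases lo.sub4 0 s (q1 m n) j with h1 | h1
      · exact Or.inl (g4 h1)
      · exact Or.inr h1
    sideIO := by
      intro s j i h1 h2
      have h1 : Inn (F s) T (lK z (fun _ : Fin 1 => u) (q1 0 0)) (j.val : ℝ) i := h1
      have h2 : Out (F s) T (lK z (fun _ : Fin 1 => u) (q1 0 0)) (j.val : ℝ) i := h2
      rw [e0] at h1 h2
      exact hio s j i h1 h2
    side4 := by
      intro s m n j x y a b hxy hxa hxb hya hyb hab hM hM' hi ho
      by_contra h5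
      exact H894.side4K (FF := fun _ : Fin 1 => F) (c := 0) (σ := s) (j := j) hK.irr z hxa hxb hya hyb (g4' h5) hM hM' hi ho
    symM := fun m n a b h => lo.symM h
    defM := fun s m n j a b hab h1 h2 h3 h4 => lo.defM (c := 0) hab h1 h2 h3 h4
    sweepO := by
      intro s m n j j' hs s'
      have h1 := lo.swO 0 0 s s' (q1 m n) j j' (by rw [sk_eq]; exact mod_d s s' j j' hs)
      rw [st_q1] at h1
      exact h1
    sweepI := by
      intro s m n j j' hs s'
      have h1 := lo.swI 0 0 s s' (q1 m n) j j' (by rw [sk_eq]; exact mod_i s s' j j' hs)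
      rw [st_q1] at h1
      exact h1
    wedgeO := by
      intro s m n j
      have h1 := lo.swO 0 0 s s (q1 m n) j j (by rw [sk_eq]; exact mod_0 s j)
      rw [st_q1] at h1
      exact h1
    wedgeI := by
      intro s m n j
      have h1 := lo.swI 0 0 s (!s) (q1 m n) j j (by
        rw [sk_eq, mod_0]; cases s <;> decide)
      rw [st_q1] at h1
      exact h1
    wedgeO' := by
      intro s m n j
      have h1 := lo.swO 0 0 s (!s) (q1 m n) j (j + 3) (by
        rw [sk_eq, mod_3]; cases s <;> decide)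
      rw [st_q1] at h1
      exact h1
    wedgeI' := by
      intro s m n j
      have h1 := lo.swI 0 0 s s (q1 m n) j (j + 3) (by
        rw [sk_eq, mod_3]; cases s <;> decide)
      rw [st_q1] at h1
      exact h1
    sixty := fun s m n j i hi => lo.sixty (c := 0) hi
    product := by
      intro s m n j l i hi
      have h1 := lo.product (c := 0) (σ := s) (q := q1 m n) (j := j) (i := i) 0 l hi
      rw [st_q1] at h1
      exact h1
    mdeg4 := by
      intro m n i a b _ _ hab h1 h2
      by_contra h5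
      exact hab (lo.m4 (g4' h5) h1 h2)
    mdeg5 := by
      intro m n i a b c _ _ _ hab hac hbc h1 h2 h3
      by_contra h6
      exact lo.m5 (g4' h6) hab hac hbc h1 h2 h3
    mdeg6 := fun m n i a b c d _ _ _ _ hab hac had hbc hbd hcd h1 h2 h3 h4 =>
      lo.m6 hab hac had hbc hbd hcd h1 h2 h3 h4
    k23 := fun m n a b c d e hab hcd hce hde _ _ _ _ _ _ h1 h2 h3 h4 h5 h6 =>
      lo.k23 hab hcd hce hde h1 h2 h3 h4 h5 h6
    c4 := by
      intro m n a b c d hab hcd _ _ _ _ h1 h2 h3 h4
      by_contra h6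
      exact lo.c5 (g4' h6) hab hcd h1 h2 h3 h4
    notsub := by
      intro m n j
      rcases lo.notsub (q1 m n) 0 j with h1 | ⟨i, h1, h2⟩
      · exact Or.inl (g4 h1)
      · rw [st_q1] at h1
        exact Or.inr ⟨i, h1, h2⟩
    third := by
      intro m n j l t h1 h2 ht
      have h3 := lo.third (q := q1 m n) (c := 0) (c' := 0) (j := j) (k := l) (t := t) (npk h1 h2)
        (by rw [st_q1, st_q1]; exact ht)
      rcases h3 with h3 | ⟨i, h4, h5, h6⟩
      · exact Or.inl (g4 h3)
      · rw [st_q1] at h5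
        exact Or.inr ⟨i, h4, h5, h6⟩
    lemB := by
      intro m n j l i i' h1 h2 _ h3 h4
      obtain ⟨c, h5, h6, h7⟩ := lo.lemmaB (q := q1 m n) (c := 0) (c' := 0) (j := j) (k := l)
        (npk h1 h2) (a := i) (b := i') (by rw [st_q1]; exact h3) (by rw [st_q1]; exact h4)
      exact ⟨c, h6, h7, h5⟩
    wlen := hlen
    wstep := fun i => win_step (hle i) u
    winn := by
      intro s j i hi
      have hi : Inn (F s) T (lK z (fun _ : Fin 1 => u) (q1 0 0)) (j.val : ℝ) i := hi
      rw [e0] at hi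
      exact hin s j i hi
    wout := by
      intro s j i hi
      have hi : Out (F s) T (lK z (fun _ : Fin 1 => u) (q1 0 0)) (j.val : ℝ) i := hi
      rw [e0] at hi
      exact hout s j i hi
    cover := hcov
    side := by
      intro k c hc
      rw [tb] at hc
      exact (H485.tt_iff hf.irr).1 hc
    icT := fun k c hc => (tb k c).2 hc.1
    ocT := fun k c hc => (tb k c).2 hc.1
    hullO := fun k c hc => outc_hd (hle c) (hlt c) (hD c).1 (hD c).2 hc
    hullI := fun k c hc => innc_hd (hle c) (hlt c) (hD c).1 (hD c).2 hc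
    sidezI := by
      intro s k c hc
      have hc : Inn (F s) T (lK z (fun _ : Fin 1 => u) (q1 0 0)) (k.val : ℝ) c := hc
      rw [e0] at hc
      refine H485.ic_of_in (σ := s) hf ?_
      unfold H437.IN
      rw [lp_zero]
      exact hc
    sidezO := by
      intro s k c hc
      have hc : Out (F s) T (lK z (fun _ : Fin 1 => u) (q1 0 0)) (k.val : ℝ) c := hc
      rw [e0] at hc
      refine H485.oc_of_out (σ := s) hf ?_
      unfold H437.OUT
      rw [lp_zero]
      exact hc
    sidelI := by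
      intro s k m c hw hl
      have hm : ∀ (s : Bool) (k m : Fin 6), swI s k m = true → m ≠ k + 3 := by decide
      refine (H485.side_lt hf (hm s k m hw) (i := c) ?_).2 (mod_i s s k m hw)
      have hl : c ∈ H437.lt (F s) T (lK z (fun _ : Fin 1 => u) (q1 (dx k + dx m) (dy k + dy m)))
        (((m + 3 : Fin 6).val : ℕ) : ℝ) := hl
      rw [lK_q1] at hl
      have e : ∀ k m : Fin 6, H437.dx k + H437.dx m = dx k + dx m ∧
        H437.dy k + H437.dy m = dy k + dy m := by decide
      unfold H437.LT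
      rw [(e k m).1, (e k m).2]
      exact hl
    sidelO := by
      intro s k m c hw hl
      have hm : ∀ (s : Bool) (k m : Fin 6), (swO s k m = true ∨ m = k) → m ≠ k + 3 ∧
        sgn (m - k) s = s := by decide
      refine (H485.side_lt hf (hm s k m hw).1 (i := c) ?_).1 (hm s k m hw).2
      have hl : c ∈ H437.lt (F s) T (lK z (fun _ : Fin 1 => u) (q1 (dx k + dx m) (dy k + dy m)))
        (((m + 3 : Fin 6).val : ℕ) : ℝ) := hl
      rw [lK_q1] at hl
      have e : ∀ k m : Fin 6, H437.dx k + H437.dx m = dx k + dx m ∧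
        H437.dy k + H437.dy m = dy k + dy m := by decide
      unfold H437.LT
      rw [(e k m).1, (e k m).2]
      exact hl }

end Vale.Agent.P032.H184
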